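import Vale.Agent.P097.H128.Sector.Defs
import Vale.Agent.P097.H128.NZ.Chord
import Vale.Agent.P097.H288.Div
import Vale.Agent.P097.H650.Patch

/-! # P097 / REG-A, part 1: the kernel of the chord equation in the `x`-chart -/

set_option linter.all false

open Complex Metric Filter Topology Set

namespace Vale.Agent.P097.SC

open Vale.Agent.P097

variable {Φ q : ℂ → ℂ} {c x₀ : ℂ}

theorem snc_neg (u : ℂ) : NZ.snc (-u) = NZ.snc u := by
  by_cases h : u = 0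
  · rw [h, neg_zero]
  · have h1 := NZ.mul_snc u
    have h2 := NZ.mul_snc (-u)
    rw [Complex.sin_neg] at h2
    have h3 : u * NZ.snc (-u) = u * NZ.snc u := by linear_combination -h2 - h1
    exact mul_left_cancel₀ h h3

/-- derivative of `sin (a η) / a` -/
theorem hasDerivAt_mul_snc (a η : ℂ) :
    HasDerivAt (fun η : ℂ => η * NZ.snc (a * η)) (Complex.cos (a * η)) η := by
  by_cases ha : a = 0
  · subst ha
    simp only [zero_mul, NZ.snc_zero, mul_one, Complex.cos_zero]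
    exact hasDerivAt_id η
  · have h1 : (fun η : ℂ => η * NZ.snc (a * η)) = fun η => Complex.sin (a * η) / a := by
      funext y
      rw [eq_div_iff ha, ← NZ.mul_snc (a * y)]
      ring
    rw [h1]
    have h2 : HasDerivAt (fun η : ℂ => a * η) a η := by
      simpa using (hasDerivAt_id η).const_mul a
    have h3 := ((Complex.hasDerivAt_sin (a * η)).comp η h2).div_const a
    refine h3.congr_deriv ?_
    field_simp

theorem Crv.near (h : Crv Φ q c x₀) : ∀ᶠ z in 𝓝 x₀, Crv Φ q c z := by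
  filter_upwards [h.aΦ.eventually_analyticAt, h.aq.eventually_analyticAt,
    h.wr.eventually_nhds] with z a b w using ⟨a, b, w⟩

/-- the incidence function in the coordinates `((θ, x), η)` -/
noncomputable def Gh (Φ q : ℂ → ℂ) (z : (ℂ × ℂ) × ℂ) : ℂ :=
  Gi Φ q (z.1.1, z.2) (z.1.1 + z.2 * z.1.2)

theorem an_11 {g : ℂ → ℂ} (hg : AnalyticAt ℂ g x₀) (x y : ℂ) :
    AnalyticAt ℂ (fun z : (ℂ × ℂ) × ℂ => g z.1.1) ((x₀, x), y) := by
  have h1 : AnalyticAt ℂ (fun z : (ℂ × ℂ) × ℂ => z.1.1) ((x₀, x), y) :=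
    analyticAt_fst.comp analyticAt_fst
  exact hg.comp_of_eq h1 rfl

theorem an_s {g : ℂ → ℂ} (hg : AnalyticAt ℂ g x₀) (x : ℂ) :
    AnalyticAt ℂ (fun z : (ℂ × ℂ) × ℂ => g (z.1.1 + z.2 * z.1.2)) ((x₀, x), 0) := by
  have h1 : AnalyticAt ℂ (fun z : (ℂ × ℂ) × ℂ => z.1.1) ((x₀, x), (0 : ℂ)) :=
    analyticAt_fst.comp analyticAt_fst
  have h2 : AnalyticAt ℂ (fun z : (ℂ × ℂ) × ℂ => z.1.2) ((x₀, x), (0 : ℂ)) :=
    analyticAt_snd.comp analyticAt_fst
  have h3 : AnalyticAt ℂ (fun z : (ℂ × ℂ) × ℂ => z.2) ((x₀, x), (0 : ℂ)) := analyticAt_snd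
  exact hg.comp_of_eq (h1.add (h3.mul h2)) (by simp)

theorem aL_an {v : ℂ × ℂ} (s : ℂ) (h : AnalyticAt ℂ Φ v.1) : AnalyticAt ℂ (aL Φ s) v := by
  have h1 : AnalyticAt ℂ (fun w : ℂ × ℂ => Φ w.1) v := h.comp analyticAt_fst
  have h2 : AnalyticAt ℂ (fun w : ℂ × ℂ => deriv Φ w.1) v := h.deriv.comp analyticAt_fst
  have h3 : AnalyticAt ℂ (fun w : ℂ × ℂ => w.2) v := analyticAt_snd
  exact h1.add (analyticAt_const.mul (h2.mul h3))

theorem cos_an (u : ℂ) : AnalyticAt ℂ Complex.cos u := Complex.differentiable_cos.analyticAt u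
theorem sin_an (u : ℂ) : AnalyticAt ℂ Complex.sin u := Complex.differentiable_sin.analyticAt u

theorem qL_an {v : ℂ × ℂ} (s : ℂ) (h : AnalyticAt ℂ Φ v.1) (hq : AnalyticAt ℂ q v.1) :
    AnalyticAt ℂ (qL Φ q s) v := by
  have h2 : AnalyticAt ℂ (fun w : ℂ × ℂ => deriv Φ w.1) v := h.deriv.comp analyticAt_fst
  have h3 : AnalyticAt ℂ (fun w : ℂ × ℂ => w.2) v := analyticAt_snd
  have h4 : AnalyticAt ℂ (fun w : ℂ × ℂ => q w.1) v := hq.comp analyticAt_fst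
  have h5 : AnalyticAt ℂ (fun w : ℂ × ℂ => deriv q w.1) v := hq.deriv.comp analyticAt_fst
  have h6 : AnalyticAt ℂ (fun w : ℂ × ℂ => Complex.cos (deriv Φ w.1 * w.2)) v :=
    (cos_an _).comp (h2.mul h3)
  have h7 : AnalyticAt ℂ (fun w : ℂ × ℂ => NZ.snc (deriv Φ w.1 * w.2)) v :=
    (NZ.snc_an _).comp (h2.mul h3)
  exact (h4.mul h6).add (analyticAt_const.mul (h5.mul (h3.mul h7)))

theorem Gh_an (h : Crv Φ q c x₀) (x : ℂ) : AnalyticAt ℂ (Gh Φ q) ((x₀, x), 0) := by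
  have hv : AnalyticAt ℂ (fun z : (ℂ × ℂ) × ℂ => ((z.1.1, z.2) : ℂ × ℂ)) ((x₀, x), (0 : ℂ)) :=
    (analyticAt_fst.comp analyticAt_fst).prod analyticAt_snd
  have h1 : AnalyticAt ℂ (fun z : (ℂ × ℂ) × ℂ => aL Φ 1 (z.1.1, z.2)) ((x₀, x), (0 : ℂ)) :=
    (aL_an (v := (x₀, 0)) 1 h.aΦ).comp_of_eq hv rfl
  have h2 : AnalyticAt ℂ (fun z : (ℂ × ℂ) × ℂ => qL Φ q 1 (z.1.1, z.2)) ((x₀, x), (0 : ℂ)) :=
    (qL_an (v := (x₀, 0)) 1 h.aΦ h.aq).comp_of_eq hv rfl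
  have h3 := an_s h.aΦ x
  have h4 := an_s h.aΦ.deriv x
  have h5 := an_s h.aq x
  have h6 := an_s h.aq.deriv x
  have h7 := (cos_an _).comp (h1.sub h3)
  have h8 := (sin_an _).comp (h1.sub h3)
  exact (h4.mul ((h5.mul h7).sub h2)).add (h6.mul h8)

/-- the `η`-derivative of `Gh ((θ, x), η)` -/
noncomputable def Gd (Φ q : ℂ → ℂ) (θ x η : ℂ) : ℂ :=
  x * deriv (deriv Φ) (θ + η * x) *
      (q (θ + η * x) * Complex.cos (aL Φ 1 (θ, η) - Φ (θ + η * x)) - qL Φ q 1 (θ, η)) +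
    deriv Φ (θ + η * x) *
      (x * deriv q (θ + η * x) * Complex.cos (aL Φ 1 (θ, η) - Φ (θ + η * x)) -
        q (θ + η * x) * Complex.sin (aL Φ 1 (θ, η) - Φ (θ + η * x)) *
          (deriv Φ θ - x * deriv Φ (θ + η * x)) -
        (-(q θ * deriv Φ θ) * Complex.sin (deriv Φ θ * η) +
          deriv q θ * Complex.cos (deriv Φ θ * η))) +
    x * deriv (deriv q) (θ + η * x) * Complex.sin (aL Φ 1 (θ, η) - Φ (θ + η * x)) +
    deriv q (θ + η * x) * Complex.cos (aL Φ 1 (θ, η) - Φ (θ + η * x)) *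
      (deriv Φ θ - x * deriv Φ (θ + η * x))

theorem hasDerivAt_s {g : ℂ → ℂ} {θ x η : ℂ} (hg : AnalyticAt ℂ g (θ + η * x)) :
    HasDerivAt (fun η : ℂ => g (θ + η * x)) (x * deriv g (θ + η * x)) η := by
  have h1 : HasDerivAt (fun η : ℂ => θ + η * x) x η := by
    simpa using ((hasDerivAt_id η).mul_const x).const_add θ
  have h2 := hg.differentiableAt.hasDerivAt.comp η h1
  exact h2.congr_deriv (by ring)

theorem hasDerivAt_aL (θ η : ℂ) : HasDerivAt (fun η : ℂ => aL Φ 1 (θ, η)) (deriv Φ θ) η := by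
  have h1 : HasDerivAt (fun η : ℂ => Φ θ + 1 * (deriv Φ θ * η)) (1 * (deriv Φ θ * 1)) η :=
    (((hasDerivAt_id η).const_mul (deriv Φ θ)).const_mul 1).const_add (Φ θ)
  exact h1.congr_deriv (by ring)

theorem hasDerivAt_qL (θ η : ℂ) : HasDerivAt (fun η : ℂ => qL Φ q 1 (θ, η))
    (-(q θ * deriv Φ θ) * Complex.sin (deriv Φ θ * η) +
      deriv q θ * Complex.cos (deriv Φ θ * η)) η := by
  have h2 : HasDerivAt (fun η : ℂ => deriv Φ θ * η) (deriv Φ θ) η := by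
    simpa using (hasDerivAt_id η).const_mul (deriv Φ θ)
  have h3 := ((Complex.hasDerivAt_cos (deriv Φ θ * η)).comp η h2).const_mul (q θ)
  have h4 := ((hasDerivAt_mul_snc (deriv Φ θ) η).const_mul (deriv q θ)).const_mul 1
  have h5 := h3.add h4
  refine h5.congr_deriv ?_
  ring

theorem hasDerivAt_Gh {θ x η : ℂ} (hΦ : AnalyticAt ℂ Φ (θ + η * x))
    (hq : AnalyticAt ℂ q (θ + η * x)) :
    HasDerivAt (fun η : ℂ => Gh Φ q ((θ, x), η)) (Gd Φ q θ x η) η := by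
  have h1 := hasDerivAt_s hΦ
  have h2 := hasDerivAt_s hΦ.deriv
  have h3 := hasDerivAt_s hq
  have h4 := hasDerivAt_s hq.deriv
  have hA := (hasDerivAt_aL (Φ := Φ) θ η).sub h1
  have hP := hasDerivAt_qL (Φ := Φ) (q := q) θ η
  have hc := (Complex.hasDerivAt_cos (aL Φ 1 (θ, η) - Φ (θ + η * x))).comp η hA
  have hs := (Complex.hasDerivAt_sin (aL Φ 1 (θ, η) - Φ (θ + η * x))).comp η hA
  have h5 := (h2.mul ((h3.mul hc).sub hP)).add (h4.mul hs)
  refine h5.congr_deriv ?_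
  simp only [Function.comp, Gd, Pi.sub_apply, Pi.mul_apply]
  ring

theorem hasDerivAt_Gd {θ x : ℂ} (h : Crv Φ q c θ) :
    HasDerivAt (Gd Φ q θ x) (-(c * (x * (x - 2)))) 0 := by
  have e0 : θ + 0 * x = θ := by ring
  have hΦ : AnalyticAt ℂ Φ (θ + 0 * x) := by rw [e0]; exact h.aΦ
  have hq : AnalyticAt ℂ q (θ + 0 * x) := by rw [e0]; exact h.aq
  have h1 := hasDerivAt_s hΦ
  have h2 := hasDerivAt_s hΦ.deriv
  have h3 := hasDerivAt_s hq
  have h4 := hasDerivAt_s hq.deriv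
  have h22 := hasDerivAt_s hΦ.deriv.deriv
  have h44 := hasDerivAt_s hq.deriv.deriv
  have hA := (hasDerivAt_aL (Φ := Φ) θ 0).sub h1
  have hP := hasDerivAt_qL (Φ := Φ) (q := q) θ 0
  have hc := (Complex.hasDerivAt_cos (aL Φ 1 (θ, 0) - Φ (θ + 0 * x))).comp (0 : ℂ) hA
  have hs := (Complex.hasDerivAt_sin (aL Φ 1 (θ, 0) - Φ (θ + 0 * x))).comp (0 : ℂ) hA
  have hl : HasDerivAt (fun η : ℂ => deriv Φ θ * η) (deriv Φ θ) 0 := by
    simpa using (hasDerivAt_id (0 : ℂ)).const_mul (deriv Φ θ)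
  have hls := ((Complex.hasDerivAt_sin (deriv Φ θ * 0)).comp (0 : ℂ) hl).const_mul
    (-(q θ * deriv Φ θ))
  have hlc := ((Complex.hasDerivAt_cos (deriv Φ θ * 0)).comp (0 : ℂ) hl).const_mul (deriv q θ)
  have hAd := (h2.const_mul x).const_sub (deriv Φ θ)
  have t1 := (h22.const_mul x).mul ((h3.mul hc).sub hP)
  have t2 := h2.mul (((((h4.const_mul x).mul hc).sub ((h3.mul hs).mul hAd))).sub (hls.add hlc))
  have t3 := (h44.const_mul x).mul hs
  have t4 := (h4.mul hc).mul hAd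
  have h5 := ((t1.add t2).add t3).add t4
  refine h5.congr_deriv ?_
  have hw := h.wr.self_of_nhds
  have ea : aL Φ 1 (θ, (0 : ℂ)) = Φ θ := by simp [aL]
  have eq : qL Φ q 1 (θ, (0 : ℂ)) = q θ := by simp [qL]
  simp only [Function.comp, Pi.sub_apply, Pi.mul_apply, Pi.add_apply, e0, ea, eq, sub_self,
    Complex.sin_zero, Complex.cos_zero, mul_zero, mul_one, neg_zero, zero_mul, add_zero, zero_add]
  rw [← hw, Wr]
  ring

end Vale.Agent.P097.SC
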