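import Vale.Agent.P097.H128.Sector.A1

/-! # P097 / REG-A, part 2: the root -/

set_option linter.all false

open Complex Metric Filter Topology Set

namespace Vale.Agent.P097.SC

open Vale.Agent.P097

variable {Φ q : ℂ → ℂ} {c x₀ : ℂ}

theorem second_div {g g1 Q : ℂ → ℂ} {m : ℂ} (hQ : AnalyticAt ℂ Q 0)
    (e : ∀ᶠ η in 𝓝 (0 : ℂ), g η = η ^ 2 * Q η) (h1 : ∀ᶠ η in 𝓝 (0 : ℂ), HasDerivAt g (g1 η) η)
    (h2 : HasDerivAt g1 m 0) : Q 0 = m / 2 := by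
  have e1 : ∀ᶠ η in 𝓝 (0 : ℂ), g1 η = 2 * η * Q η + η ^ 2 * deriv Q η := by
    filter_upwards [e.eventually_nhds, h1, hQ.eventually_analyticAt] with η a b d
    have h3 : HasDerivAt (fun η => η ^ 2 * Q η) (2 * η * Q η + η ^ 2 * deriv Q η) η := by
      have := (hasDerivAt_pow 2 η).mul d.differentiableAt.hasDerivAt
      exact this.congr_deriv (by norm_num)
    have a' : (fun η => η ^ 2 * Q η) =ᶠ[𝓝 η] g := by
      filter_upwards [a] with y hy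
      exact hy.symm
    exact (b.congr_of_eventuallyEq a').unique h3
  have h3 : HasDerivAt (fun η => 2 * η * Q η + η ^ 2 * deriv Q η) (2 * Q 0) 0 := by
    have a1 : HasDerivAt (fun η : ℂ => 2 * η) 2 0 := by
      simpa using (hasDerivAt_id (0 : ℂ)).const_mul 2
    have a2 := a1.mul hQ.differentiableAt.hasDerivAt
    have a3 := (hasDerivAt_pow 2 (0 : ℂ)).mul hQ.deriv.differentiableAt.hasDerivAt
    exact (a2.add a3).congr_deriv (by simp)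
  have h4 := (h2.congr_of_eventuallyEq (f₁ := fun η => 2 * η * Q η + η ^ 2 * deriv Q η) (by
    filter_upwards [e1] with y hy
    exact hy.symm)).unique h3
  rw [h4]
  ring

/-- `Kt` in the coordinates `((θ, x), η)` -/
theorem Kt_rep (h : Crv Φ q c x₀) (x : ℂ) :
    ∃ Q : (ℂ × ℂ) × ℂ → ℂ, AnalyticAt ℂ Q ((x₀, x), 0) ∧
      ∀ᶠ z in 𝓝 (((x₀, x), 0) : (ℂ × ℂ) × ℂ), Kt Φ q c (z.1.1, z.2) z.1.2 = Q z := by
  have hfst : Tendsto (fun p : ℂ × ℂ => p.1) (𝓝 ((x₀, x) : ℂ × ℂ)) (𝓝 x₀) :=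
    continuous_fst.tendsto _
  have hcrv : ∀ᶠ p in 𝓝 ((x₀, x) : ℂ × ℂ), Crv Φ q c p.1 := hfst.eventually h.near
  have hG := Gh_an h x
  have h0 : ∀ p : ℂ × ℂ, Gh Φ q (p, 0) = 0 := by
    intro p
    simp [Gh, Gi, aL, qL]
  obtain ⟨Q1, aQ1, e1, z1⟩ := H288.exists_div hG (Filter.Eventually.of_forall h0)
  have hder : ∀ p : ℂ × ℂ, Crv Φ q c p.1 → deriv (fun η : ℂ => Gh Φ q (p, η)) 0 = 0 := by
    intro p hp
    have e0 : p.1 + 0 * p.2 = p.1 := by ring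
    have h2 := hasDerivAt_Gh (Φ := Φ) (q := q) (θ := p.1) (x := p.2) (η := 0)
      (by rw [e0]; exact hp.aΦ) (by rw [e0]; exact hp.aq)
    rw [show (fun η : ℂ => Gh Φ q (p, η)) = fun η : ℂ => Gh Φ q ((p.1, p.2), η) from rfl, h2.deriv]
    simp only [Gd, e0, aL, qL]
    simp
    ring
  have hcont0 : Tendsto (fun p : ℂ × ℂ => ((p, 0) : (ℂ × ℂ) × ℂ)) (𝓝 (x₀, x)) (𝓝 ((x₀, x), 0)) := by
    have : Continuous (fun p : ℂ × ℂ => ((p, 0) : (ℂ × ℂ) × ℂ)) := by fun_prop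
    exact this.tendsto _
  have z1' : ∀ᶠ p in 𝓝 ((x₀, x) : ℂ × ℂ), Q1 (p, 0) = 0 := by
    filter_upwards [z1, hcrv, hcont0.eventually hG.eventually_analyticAt] with p a b d
    have h2 : HasFDerivAt (Gh Φ q) (fderiv ℂ (Gh Φ q) (p, 0)) (p, 0) :=
      d.differentiableAt.hasFDerivAt
    have h3 : HasDerivAt (fun η : ℂ => ((p, η) : (ℂ × ℂ) × ℂ)) (0, 1) 0 :=
      (hasDerivAt_const (0 : ℂ) p).prodMk (hasDerivAt_id (0 : ℂ))
    have h4 := (h2.comp_hasDerivAt (0 : ℂ) h3).deriv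
    rw [a, ← h4]
    exact hder p b
  obtain ⟨Q2, aQ2, e2, -⟩ := H288.exists_div aQ1 z1'
  refine ⟨Q2, aQ2, ?_⟩
  have e3 : ∀ᶠ z in 𝓝 (((x₀, x), 0) : (ℂ × ℂ) × ℂ), Gh Φ q z = z.2 ^ 2 * Q2 z := by
    filter_upwards [e1, e2] with z a b
    rw [a, b, smul_eq_mul, smul_eq_mul]
    ring
  have hfst2 : Tendsto (fun z : (ℂ × ℂ) × ℂ => z.1.1) (𝓝 ((x₀, x), (0 : ℂ))) (𝓝 x₀) := by
    have : Continuous (fun z : (ℂ × ℂ) × ℂ => z.1.1) := by fun_prop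
    exact this.tendsto _
  filter_upwards [e3.eventually_nhds, hfst2.eventually h.near, aQ2.eventually_analyticAt] with z a b d
  by_cases hz : z.2 = 0
  · have hz' : z = (z.1, 0) := Prod.ext rfl hz
    rw [Kt, if_pos hz]
    have hline : Tendsto (fun η : ℂ => ((z.1, η) : (ℂ × ℂ) × ℂ)) (𝓝 0) (𝓝 z) := by
      have : Continuous (fun η : ℂ => ((z.1, η) : (ℂ × ℂ) × ℂ)) := by fun_prop
      have h5 := this.tendsto (0 : ℂ)
      rwa [← hz'] at h5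
    have e4 : ∀ᶠ η in 𝓝 (0 : ℂ), Gh Φ q (z.1, η) = η ^ 2 * Q2 (z.1, η) := hline.eventually a
    have aQ : AnalyticAt ℂ (fun η : ℂ => Q2 (z.1, η)) 0 := by
      have h6 : AnalyticAt ℂ (fun η : ℂ => ((z.1, η) : (ℂ × ℂ) × ℂ)) 0 :=
        analyticAt_const.prod analyticAt_id
      exact d.comp_of_eq h6 hz'.symm
    have hs : Tendsto (fun η : ℂ => z.1.1 + η * z.1.2) (𝓝 0) (𝓝 z.1.1) := by
      have : Continuous (fun η : ℂ => z.1.1 + η * z.1.2) := by fun_prop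
      have h5 := this.tendsto (0 : ℂ)
      simpa using h5
    have h7 : ∀ᶠ η in 𝓝 (0 : ℂ), HasDerivAt (fun η : ℂ => Gh Φ q (z.1, η))
        (Gd Φ q z.1.1 z.1.2 η) η := by
      filter_upwards [hs.eventually b.aΦ.eventually_analyticAt,
        hs.eventually b.aq.eventually_analyticAt] with η u v
      exact hasDerivAt_Gh u v
    have h8 := second_div aQ e4 h7 (hasDerivAt_Gd (x := z.1.2) b)
    rw [hz', h8]
    ring
  · rw [Kt, if_neg hz]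
    have h9 := a.self_of_nhds
    rw [Gh] at h9
    have h10 : z.2 ^ 2 ≠ 0 := pow_ne_zero _ hz
    field_simp
    rw [h9]

theorem Kt_an (h : Crv Φ q c x₀) (x : ℂ) :
    AnalyticAt ℂ (fun z : (ℂ × ℂ) × ℂ => Kt Φ q c z.1 z.2) ((x₀, 0), x) := by
  obtain ⟨Q, aQ, e⟩ := Kt_rep h x
  have h1 : AnalyticAt ℂ (fun z : (ℂ × ℂ) × ℂ => (((z.1.1, z.2), z.1.2) : (ℂ × ℂ) × ℂ))
      ((x₀, 0), x) :=
    ((analyticAt_fst.comp analyticAt_fst).prod analyticAt_snd).prod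
      (analyticAt_snd.comp analyticAt_fst)
  have h2 : AnalyticAt ℂ (fun z : (ℂ × ℂ) × ℂ => Q ((z.1.1, z.2), z.1.2)) ((x₀, 0), x) :=
    aQ.comp_of_eq h1 rfl
  have h3 := h1.continuousAt.eventually (p := fun z => Kt Φ q c (z.1.1, z.2) z.1.2 = Q z) e
  exact h2.congr (by
    filter_upwards [h3] with z hz
    exact hz.symm)

theorem Kt_axis (θ x : ℂ) : Kt Φ q c (θ, 0) x = -(c / 2) * (x * (x - 2)) := by
  rw [Kt, if_pos rfl]

theorem exists_root (hc : c ≠ 0) (h : Crv Φ q c x₀) :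
    ∃ X : ℂ × ℂ → ℂ, AnalyticAt ℂ X (x₀, 0) ∧ X (x₀, 0) = 2 ∧
      (∀ᶠ v in 𝓝 ((x₀, 0) : ℂ × ℂ), Kt Φ q c v (X v) = 0) ∧
      (∀ᶠ v in 𝓝 ((x₀, 0) : ℂ × ℂ), ∀ x ∈ ball (2 : ℂ) (1 / 4), Kt Φ q c v x = 0 → x = X v) := by
  have hder : deriv (fun x => (fun z : (ℂ × ℂ) × ℂ => Kt Φ q c z.1 z.2) ((x₀, 0), x)) 2 ≠ 0 := by
    have h1 : (fun x => (fun z : (ℂ × ℂ) × ℂ => Kt Φ q c z.1 z.2) ((x₀, 0), x)) =
        fun x => -(c / 2) * (x * (x - 2)) := by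
      funext x
      exact Kt_axis x₀ x
    rw [h1]
    have h2 : HasDerivAt (fun x : ℂ => -(c / 2) * (x * (x - 2))) (-(c / 2) * (1 * (2 - 2) + 2 * 1)) 2 := by
      have a1 : HasDerivAt (fun x : ℂ => x - 2) 1 2 := (hasDerivAt_id (2 : ℂ)).sub_const 2
      exact ((hasDerivAt_id (2 : ℂ)).mul a1).const_mul _
    rw [h2.deriv]
    intro h3
    apply hc
    linear_combination -h3
  have h0 : (fun z : (ℂ × ℂ) × ℂ => Kt Φ q c z.1 z.2) ((x₀, 0), 2) = 0 := by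
    show Kt Φ q c (x₀, 0) 2 = 0
    rw [Kt_axis]
    ring
  obtain ⟨X, aX, X0, e1, e2⟩ := H650.ift_scalar (Kt_an h 2) h0 hder
  refine ⟨X, aX, X0, e1, ?_⟩
  -- local uniqueness
  have hK : IsCompact (closedBall (2 : ℂ) (1 / 4)) := isCompact_closedBall _ _
  have h3 : ∀ x ∈ closedBall (2 : ℂ) (1 / 4),
      ∀ᶠ z in 𝓝 (x, ((x₀, 0) : ℂ × ℂ)), Kt Φ q c z.2 z.1 = 0 → z.1 = X z.2 := by
    intro x hx
    have hsw : Tendsto (fun z : ℂ × (ℂ × ℂ) => ((z.2, z.1) : (ℂ × ℂ) × ℂ))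
        (𝓝 (x, ((x₀, 0) : ℂ × ℂ))) (𝓝 ((x₀, 0), x)) := by
      have : Continuous (fun z : ℂ × (ℂ × ℂ) => ((z.2, z.1) : (ℂ × ℂ) × ℂ)) := by fun_prop
      exact this.tendsto _
    by_cases hx2 : x = 2
    · subst hx2
      filter_upwards [hsw.eventually e2] with z hz hz0
      exact (hz hz0).symm
    · have h4 : (fun z : (ℂ × ℂ) × ℂ => Kt Φ q c z.1 z.2) ((x₀, 0), x) ≠ 0 := by
        show Kt Φ q c (x₀, 0) x ≠ 0
        rw [Kt_axis]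
        have hx0 : x ≠ 0 := by
          rintro rfl
          rw [mem_closedBall, dist_eq_norm] at hx
          norm_num at hx
        exact mul_ne_zero (neg_ne_zero.2 (div_ne_zero hc two_ne_zero))
          (mul_ne_zero hx0 (sub_ne_zero.2 hx2))
      have h5 := (Kt_an h x).continuousAt.eventually_ne h4
      filter_upwards [hsw.eventually h5] with z hz hz0
      exact absurd hz0 hz
  have h4 := hK.eventually_forall_of_forall_eventually (x₀ := ((x₀, 0) : ℂ × ℂ))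
    (P := fun v x => Kt Φ q c v x = 0 → x = X v) (fun x hx => by
      have hsw : Tendsto (fun z : (ℂ × ℂ) × ℂ => ((z.2, z.1) : ℂ × (ℂ × ℂ)))
          (𝓝 (((x₀, 0) : ℂ × ℂ), x)) (𝓝 (x, (x₀, 0))) := by
        have : Continuous (fun z : (ℂ × ℂ) × ℂ => ((z.2, z.1) : ℂ × (ℂ × ℂ))) := by fun_prop
        exact this.tendsto _
      exact hsw.eventually (h3 x hx))
  filter_upwards [h4] with v hv x hx
  exact hv x (ball_subset_closedBall hx)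

theorem Xr_eq (hc : c ≠ 0) (h : Crv Φ q c x₀) :
    AnalyticAt ℂ (Xr Φ q c) (x₀, 0) ∧ Xr Φ q c (x₀, 0) = 2 ∧
      ∀ᶠ v in 𝓝 ((x₀, 0) : ℂ × ℂ), Kt Φ q c v (Xr Φ q c v) = 0 := by
  obtain ⟨X, aX, X0, e1, e2⟩ := exists_root hc h
  have hX : ∀ᶠ v in 𝓝 ((x₀, 0) : ℂ × ℂ), X v ∈ ball (2 : ℂ) (1 / 4) := by
    have := aX.continuousAt
    refine this.eventually_mem ?_
    rw [X0]
    exact ball_mem_nhds _ (by norm_num)
  have e : Xr Φ q c =ᶠ[𝓝 ((x₀, 0) : ℂ × ℂ)] X := by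
    filter_upwards [e1, e2, hX] with v a b d
    have hex : ∃ x, x ∈ ball (2 : ℂ) (1 / 4) ∧ Kt Φ q c v x = 0 := ⟨X v, d, a⟩
    rw [Xr, dif_pos hex]
    exact b _ hex.choose_spec.1 hex.choose_spec.2
  refine ⟨aX.congr e.symm, ?_, ?_⟩
  · rw [e.self_of_nhds, X0]
  · filter_upwards [e, e1] with v a b
    rw [a, b]

theorem Xr_axis (hc : c ≠ 0) (h : Crv Φ q c x₀) : ∀ᶠ z in 𝓝 x₀, Xr Φ q c (z, 0) = 2 := by
  filter_upwards [h.near] with z hz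
  exact (Xr_eq hc hz).2.1

end Vale.Agent.P097.SC
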