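import Vale.Agent.P097.H128.Sector.A2

/-! # P097 / REG-A, part 3: the billiard map is analytic at the axis -/

set_option linter.all false

open Complex Metric Filter Topology Set

namespace Vale.Agent.P097.SC

open Vale.Agent.P097

variable {Φ q : ℂ → ℂ} {c x₀ : ℂ}

theorem T1_axis (z : ℂ) : T1 Φ q c (z, 0) = z := by simp [T1]

theorem D1_axis (z : ℂ) : D1 Φ q c (z, 0) = 0 := by simp [D1, T1_axis, aL]

theorem B1_axis (z : ℂ) : B1 Φ q c (z, 0) = 0 := by simp [B1, T1_axis, D1_axis, qL]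

theorem T1_an (hc : c ≠ 0) (h : Crv Φ q c x₀) : AnalyticAt ℂ (T1 Φ q c) (x₀, 0) :=
  analyticAt_fst.add (analyticAt_snd.mul (Xr_eq hc h).1)

theorem comp_T1_an (hc : c ≠ 0) (h : Crv Φ q c x₀) {g : ℂ → ℂ} (hg : AnalyticAt ℂ g x₀) :
    AnalyticAt ℂ (fun v => g (T1 Φ q c v)) (x₀, 0) :=
  hg.comp_of_eq (T1_an hc h) (T1_axis x₀)

theorem D1_an (hc : c ≠ 0) (h : Crv Φ q c x₀) : AnalyticAt ℂ (D1 Φ q c) (x₀, 0) :=
  (aL_an (v := (x₀, 0)) 1 h.aΦ).sub (comp_T1_an hc h h.aΦ)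

theorem B1_an (hc : c ≠ 0) (h : Crv Φ q c x₀) : AnalyticAt ℂ (B1 Φ q c) (x₀, 0) := by
  have h1 := comp_T1_an hc h h.aq
  have h2 : AnalyticAt ℂ (fun v => Complex.cos (D1 Φ q c v)) (x₀, 0) :=
    (cos_an _).comp (D1_an hc h)
  have h3 := qL_an (v := ((x₀, 0) : ℂ × ℂ)) 1 h.aΦ h.aq
  have h4 : AnalyticAt ℂ (fun v => NZ.snc (D1 Φ q c v)) (x₀, 0) :=
    (NZ.snc_an _).comp (D1_an hc h)
  refine ((h1.mul h2).sub h3).div h4 ?_
  show NZ.snc (D1 Φ q c (x₀, 0)) ≠ 0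
  rw [D1_axis, NZ.snc_zero]
  exact one_ne_zero

theorem SX2_an (hc : c ≠ 0) (h : Crv Φ q c x₀) :
    AnalyticAt ℂ (fun v => (SX Φ q c v).2) (x₀, 0) := by
  have h1 := comp_T1_an hc h h.aq.deriv.deriv
  have h2 := comp_T1_an hc h h.aq
  have h3 := comp_T1_an hc h h.aΦ.deriv
  have h4 := comp_T1_an hc h h.aΦ.deriv.deriv
  have h5 := D1_an hc h
  have h6 := B1_an hc h
  exact (((h5.neg).mul (h1.add (h2.mul (h3.pow 2)))).sub (h4.mul h6)).div analyticAt_const hc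

theorem SX_an (hc : c ≠ 0) (h : Crv Φ q c x₀) : AnalyticAt ℂ (SX Φ q c) (x₀, 0) :=
  (T1_an hc h).prod (SX2_an hc h)

theorem SX_axis (z : ℂ) : SX Φ q c (z, 0) = (z, 0) := by
  simp [SX, T1_axis, D1_axis, B1_axis]

/-- the incidence equation at the next vertex -/
theorem Gi_T1 (hc : c ≠ 0) (h : Crv Φ q c x₀) :
    ∀ᶠ v in 𝓝 ((x₀, 0) : ℂ × ℂ), Gi Φ q v (T1 Φ q c v) = 0 := by
  filter_upwards [(Xr_eq hc h).2.2] with v hv
  by_cases h0 : v.2 = 0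
  · have e : v = (v.1, 0) := Prod.ext rfl h0
    rw [e, T1_axis]
    simp [Gi, aL, qL]
  · rw [Kt, if_neg h0, div_eq_zero_iff] at hv
    exact hv.resolve_right (pow_ne_zero _ h0)

theorem eventually_T1 (hc : c ≠ 0) (h : Crv Φ q c x₀) {P : ℂ → Prop} (hP : ∀ᶠ z in 𝓝 x₀, P z) :
    ∀ᶠ v in 𝓝 ((x₀, 0) : ℂ × ℂ), P (T1 Φ q c v) := by
  have h1 := (T1_an hc h).continuousAt
  have h2 : Tendsto (T1 Φ q c) (𝓝 ((x₀, 0) : ℂ × ℂ)) (𝓝 x₀) := by
    have := h1.tendsto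
    rwa [T1_axis] at this
  exact h2.eventually hP

/-- the new `η`: `Φ' η₁ = -Δ`, `q' η₁ = B` -/
theorem eta1 (hc : c ≠ 0) (h : Crv Φ q c x₀) : ∀ᶠ v in 𝓝 ((x₀, 0) : ℂ × ℂ),
    NZ.snc (D1 Φ q c v) ≠ 0 ∧ deriv Φ (T1 Φ q c v) * (SX Φ q c v).2 = -D1 Φ q c v ∧
      deriv q (T1 Φ q c v) * (SX Φ q c v).2 = B1 Φ q c v := by
  have h1 : ∀ᶠ v in 𝓝 ((x₀, 0) : ℂ × ℂ), NZ.snc (D1 Φ q c v) ≠ 0 := by
    have h4 : AnalyticAt ℂ (fun v => NZ.snc (D1 Φ q c v)) ((x₀, 0) : ℂ × ℂ) :=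
      (NZ.snc_an _).comp (D1_an hc h)
    refine h4.continuousAt.eventually_ne ?_
    show NZ.snc (D1 Φ q c (x₀, 0)) ≠ 0
    rw [D1_axis, NZ.snc_zero]
    exact one_ne_zero
  filter_upwards [h1, Gi_T1 hc h, eventually_T1 hc h h.wr] with v a b w
  refine ⟨a, ?_⟩
  set T := T1 Φ q c v with hT
  set Δ := D1 Φ q c v with hΔ
  set B := B1 Φ q c v with hB
  have hB' : B * NZ.snc Δ = q T * Complex.cos Δ - qL Φ q 1 v := by
    rw [hB, B1, ← hΔ, ← hT]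
    field_simp
  have hD : aL Φ 1 v - Φ T = Δ := rfl
  rw [Gi, hD, ← hB', ← NZ.mul_snc Δ] at b
  have b' : deriv Φ T * B + deriv q T * Δ = 0 := by
    have : NZ.snc Δ * (deriv Φ T * B + deriv q T * Δ) = 0 := by linear_combination b
    exact (mul_eq_zero.1 this).resolve_left a
  rw [Wr] at w
  have e1 : (SX Φ q c v).2 = (-Δ * (deriv (deriv q) T + q T * deriv Φ T ^ 2)
      - deriv (deriv Φ) T * B) / c := rfl
  rw [e1]
  constructor
  · field_simp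
    linear_combination (-Δ) * w - deriv (deriv Φ) T * b'
  · field_simp
    linear_combination B * w - (deriv (deriv q) T + q T * deriv Φ T ^ 2) * b'

theorem lines_eq (hc : c ≠ 0) (h : Crv Φ q c x₀) : ∀ᶠ v in 𝓝 ((x₀, 0) : ℂ × ℂ),
    aL Φ (-1) (SX Φ q c v) = aL Φ 1 v ∧ qL Φ q (-1) (SX Φ q c v) = qL Φ q 1 v := by
  filter_upwards [eta1 hc h] with v hv
  obtain ⟨h0, h1, h2⟩ := hv
  have e1 : (SX Φ q c v).1 = T1 Φ q c v := rfl
  constructor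
  · rw [aL, e1, h1]
    simp only [D1]
    ring
  · have h3 : B1 Φ q c v * NZ.snc (D1 Φ q c v) =
        q (T1 Φ q c v) * Complex.cos (D1 Φ q c v) - qL Φ q 1 v := by
      rw [B1]
      field_simp
    rw [qL, e1, h1, Complex.cos_neg, snc_neg]
    linear_combination -h3 - NZ.snc (D1 Φ q c v) * h2

/-- `f (z, η) = a (z) + O (η)` and so on: quotient by `η` -/
theorem bd_of_axis {f : ℂ × ℂ → ℂ} (hf : AnalyticAt ℂ f (x₀, 0))
    (h0 : ∀ᶠ z in 𝓝 x₀, f (z, 0) = 0) :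
    ∃ g : ℂ × ℂ → ℂ, AnalyticAt ℂ g (x₀, 0) ∧ (∀ᶠ v in 𝓝 ((x₀, 0) : ℂ × ℂ), f v = v.2 * g v) ∧
      ∀ᶠ z in 𝓝 x₀, g (z, 0) = deriv (fun η => f (z, η)) 0 := by
  obtain ⟨g, ag, e, z⟩ := H288.exists_div hf h0
  refine ⟨g, ag, by simpa using e, ?_⟩
  filter_upwards [z, NZ.eventually_axis hf.eventually_analyticAt] with y a b
  rw [a]
  exact (NZ.deriv_snd (p := (y, 0)) b.differentiableAt).symm

/-- the `η`-derivative of the new `η` is `1` -/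
theorem deriv_SX2 (hc : c ≠ 0) (h : Crv Φ q c x₀) :
    deriv (fun η => (SX Φ q c (x₀, η)).2) 0 = 1 := by
  have hT : HasDerivAt (fun η => T1 Φ q c (x₀, η)) 2 0 := by
    have h1 : HasDerivAt (fun η : ℂ => Xr Φ q c (x₀, η))
        (deriv (fun η : ℂ => Xr Φ q c (x₀, η)) 0) 0 :=
      (NZ.analyticAt_pair2 (Xr_eq hc h).1).differentiableAt.hasDerivAt
    have h2 := ((hasDerivAt_id (0 : ℂ)).mul h1).const_add x₀
    refine h2.congr_deriv ?_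
    rw [(Xr_eq hc h).2.1]
    simp
  have hg : ∀ {g : ℂ → ℂ}, AnalyticAt ℂ g x₀ →
      HasDerivAt (fun η => g (T1 Φ q c (x₀, η))) (deriv g x₀ * 2) 0 := by
    intro g hg
    have h1 : HasDerivAt g (deriv g x₀) (T1 Φ q c (x₀, 0)) := by
      rw [T1_axis]; exact hg.differentiableAt.hasDerivAt
    exact h1.comp (0 : ℂ) hT
  have hD : HasDerivAt (fun η => D1 Φ q c (x₀, η)) (-deriv Φ x₀) 0 := by
    have h1 := (hasDerivAt_aL (Φ := Φ) x₀ 0).sub (hg h.aΦ)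
    exact h1.congr_deriv (by ring)
  have hS : HasDerivAt (fun η => NZ.snc (D1 Φ q c (x₀, η)))
      (deriv NZ.snc (D1 Φ q c (x₀, 0)) * -deriv Φ x₀) 0 :=
    (NZ.snc_an _).differentiableAt.hasDerivAt.comp (0 : ℂ) hD
  have hC := (Complex.hasDerivAt_cos (D1 Φ q c (x₀, 0))).comp (0 : ℂ) hD
  have hP := hasDerivAt_qL (Φ := Φ) (q := q) x₀ 0
  have hN := ((hg h.aq).mul hC).sub hP
  have hne : NZ.snc (D1 Φ q c (x₀, 0)) ≠ 0 := by
    rw [D1_axis, NZ.snc_zero]; exact one_ne_zero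
  have hB := hN.div hS hne
  have hall := (((hD.neg).mul ((hg h.aq.deriv.deriv).add ((hg h.aq).mul ((hg h.aΦ.deriv).pow 2)))).sub
    ((hg h.aΦ.deriv.deriv).mul hB)).div_const c
  have hfin : HasDerivAt (fun η => (SX Φ q c (x₀, η)).2) _ 0 := hall
  rw [hfin.deriv]
  have hw := h.wr.self_of_nhds
  have ea : aL Φ 1 (x₀, (0 : ℂ)) = Φ x₀ := by simp [aL]
  have eq : qL Φ q 1 (x₀, (0 : ℂ)) = q x₀ := by simp [qL]
  simp only [Function.comp, Pi.sub_apply, Pi.mul_apply, Pi.add_apply, Pi.div_apply, Pi.pow_apply,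
    Pi.neg_apply, D1_axis, T1_axis, B1_axis, NZ.snc_zero, Complex.cos_zero, Complex.sin_zero, eq,
    mul_zero, zero_mul, sub_self, neg_zero, mul_one, add_zero, zero_add, sub_zero, zero_sub]
  rw [Wr] at hw
  field_simp
  linear_combination hw

/-- **REG-A** -/
theorem regA : RegA := by
  intro Φ q c x₀ hc h
  refine ⟨SX_an hc h, ?_, lines_eq hc h⟩
  -- first component
  have h1 : AnalyticAt ℂ (fun v => Xr Φ q c v - 2) (x₀, 0) := (Xr_eq hc h).1.sub analyticAt_const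
  have h2 : ∀ᶠ z in 𝓝 x₀, (fun v => Xr Φ q c v - 2) (z, 0) = 0 := by
    filter_upwards [Xr_axis hc h] with z hz
    show Xr Φ q c (z, 0) - 2 = 0
    rw [hz, sub_self]
  obtain ⟨g1, ag1, e1, -⟩ := bd_of_axis h1 h2
  -- second component
  obtain ⟨g2, ag2, e2, z2⟩ := bd_of_axis (SX2_an hc h) (Filter.Eventually.of_forall fun z => by
    rw [SX_axis])
  have z2' : ∀ᶠ z in 𝓝 x₀, (fun v => g2 v - 1) (z, 0) = 0 := by
    filter_upwards [z2, h.near] with z a b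
    show g2 (z, 0) - 1 = 0
    rw [a, deriv_SX2 hc b, sub_self]
  obtain ⟨g3, ag3, e3, -⟩ := bd_of_axis (ag2.sub analyticAt_const) z2'
  have b1 := ag1.continuousAt.norm.eventually_lt_const (lt_add_one ‖g1 (x₀, 0)‖)
  have b3 := ag3.continuousAt.norm.eventually_lt_const (lt_add_one ‖g3 (x₀, 0)‖)
  obtain ⟨r, hr, hh⟩ := NZ.exists_polydisc ((e1.and e2).and ((e3.and b1).and b3))
  refine ⟨r, hr, max (‖g1 (x₀, 0)‖ + 1) (‖g3 (x₀, 0)‖ + 1), ?_⟩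
  intro θ η hθ hη
  obtain ⟨⟨a1, a2⟩, ⟨a3, a4⟩, a5⟩ := hh θ (by rwa [mem_ball_iff_norm]) η
    (by rwa [mem_ball_zero_iff])
  constructor
  · have e : (SX Φ q c (θ, η)).1 - (θ + 2 * η) = η ^ 2 * g1 (θ, η) := by
      have : (SX Φ q c (θ, η)).1 = θ + η * Xr Φ q c (θ, η) := rfl
      rw [this]
      have a1' : Xr Φ q c (θ, η) - 2 = η * g1 (θ, η) := a1
      linear_combination η * a1'
    rw [e, norm_mul, norm_pow, mul_comm]
    exact mul_le_mul_of_nonneg_right (a4.le.trans (le_max_left _ _)) (by positivity)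
  · have e : (SX Φ q c (θ, η)).2 - η = η ^ 2 * g3 (θ, η) := by
      have a2' : (SX Φ q c (θ, η)).2 = η * g2 (θ, η) := a2
      have a3' : g2 (θ, η) - 1 = η * g3 (θ, η) := a3
      rw [a2']
      linear_combination η * a3'
    rw [e, norm_mul, norm_pow, mul_comm]
    exact mul_le_mul_of_nonneg_right (a5.le.trans (le_max_right _ _)) (by positivity)

end Vale.Agent.P097.SC
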