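import Vale.Agent.P097.H202.Lines2
import Vale.Agent.P097.H128.NZ.Defs

/-! # P097 / joint regularity of the lines (REG) and the sector row: definitions and interfaces

Owner: helper128.  The `x`-chart: `Φ` = normal angle, `q` = support number of the tangent line, as
functions of the affine (Lazutkin) parameter `x`.  A phase point near the table is a pair
`v = (θ, η)`: vertex at the parameter `θ`, outgoing / incoming line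
`(Φ θ ± Φ' θ η, q θ cos (Φ' θ η) ± q' θ η snc (Φ' θ η))`.  Points with `Φ' θ = 0` (the curve passes
through infinity) are regular points of this chart. -/

set_option linter.all false

open Complex Metric Filter Topology Set

namespace Vale.Agent.P097.SC

open Vale.Agent.P097.TA Vale.Agent.P097.H202

noncomputable section

/-- normal angle of the outgoing (`s = 1`) / incoming (`s = -1`) line at the phase point `v` -/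
def aL (Φ : ℂ → ℂ) (s : ℂ) (v : ℂ × ℂ) : ℂ := Φ v.1 + s * (deriv Φ v.1 * v.2)

/-- support number of the outgoing (`s = 1`) / incoming (`s = -1`) line at the phase point `v` -/
def qL (Φ q : ℂ → ℂ) (s : ℂ) (v : ℂ × ℂ) : ℂ :=
  q v.1 * Complex.cos (deriv Φ v.1 * v.2) +
    s * (deriv q v.1 * (v.2 * NZ.snc (deriv Φ v.1 * v.2)))

/-- `q'' Φ' - q' Φ'' + q Φ' ^ 3` -/
def Wr (Φ q : ℂ → ℂ) (x : ℂ) : ℂ :=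
  deriv (deriv q) x * deriv Φ x - deriv q x * deriv (deriv Φ) x + q x * deriv Φ x ^ 3

/-- `Φ`, `q` are analytic at `x` and parametrised by the affine parameter -/
structure Crv (Φ q : ℂ → ℂ) (c : ℂ) (x : ℂ) : Prop where
  aΦ : AnalyticAt ℂ Φ x
  aq : AnalyticAt ℂ q x
  wr : ∀ᶠ z in 𝓝 x, Wr Φ q z = c

/-- incidence of the vertex `θ₁` and the outgoing line at `v` -/
def Gi (Φ q : ℂ → ℂ) (v : ℂ × ℂ) (θ₁ : ℂ) : ℂ :=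
  deriv Φ θ₁ * (q θ₁ * Complex.cos (aL Φ 1 v - Φ θ₁) - qL Φ q 1 v) +
    deriv q θ₁ * Complex.sin (aL Φ 1 v - Φ θ₁)

/-- `Gi Φ q v (θ + η x) / η ^ 2` -/
def Kt (Φ q : ℂ → ℂ) (c : ℂ) (v : ℂ × ℂ) (x : ℂ) : ℂ :=
  if v.2 = 0 then -(c / 2) * (x * (x - 2)) else Gi Φ q v (v.1 + v.2 * x) / v.2 ^ 2

open Classical in
/-- the root near `2` of `Kt v` -/
def Xr (Φ q : ℂ → ℂ) (c : ℂ) (v : ℂ × ℂ) : ℂ :=
  if h : ∃ x, x ∈ ball (2 : ℂ) (1 / 4) ∧ Kt Φ q c v x = 0 then h.choose else 2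

/-- the next vertex -/
def T1 (Φ q : ℂ → ℂ) (c : ℂ) (v : ℂ × ℂ) : ℂ := v.1 + v.2 * Xr Φ q c v

/-- minus `Φ' η` at the next vertex -/
def D1 (Φ q : ℂ → ℂ) (c : ℂ) (v : ℂ × ℂ) : ℂ := aL Φ 1 v - Φ (T1 Φ q c v)

/-- `q' η` at the next vertex -/
def B1 (Φ q : ℂ → ℂ) (c : ℂ) (v : ℂ × ℂ) : ℂ :=
  (q (T1 Φ q c v) * Complex.cos (D1 Φ q c v) - qL Φ q 1 v) / NZ.snc (D1 Φ q c v)

/-- the billiard map in the `x`-chart -/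
def SX (Φ q : ℂ → ℂ) (c : ℂ) (v : ℂ × ℂ) : ℂ × ℂ :=
  (T1 Φ q c v,
    (-(D1 Φ q c v) * (deriv (deriv q) (T1 Φ q c v) + q (T1 Φ q c v) * deriv Φ (T1 Φ q c v) ^ 2)
      - deriv (deriv Φ) (T1 Φ q c v) * B1 Φ q c v) / c)

/-- label of the leaf: odd first integral of the billiard map -/
structure Lab (Φ q : ℂ → ℂ) (c : ℂ) (F : ℂ × ℂ → ℂ) (x : ℂ) : Prop where
  an : AnalyticAt ℂ F (x, 0)
  odd : ∀ᶠ v in 𝓝 ((x, 0) : ℂ × ℂ), F (v.1, -v.2) = -F v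
  inv : ∀ᶠ v in 𝓝 ((x, 0) : ℂ × ℂ), F (SX Φ q c v) = F v
  nrm : ∀ᶠ z in 𝓝 x, deriv (fun η => F (z, η)) 0 = 2

/-- the family of lines `(α, p)` near `(x, 0)` is the family of leaves of the curve `(Φ, q)`:
`F (θ, η) = w` label, `N (θ, ·)` inverse of `F (θ, ·)`, `T (θ, w)` = phase of the vertex `θ` on the
leaf `w` -/
structure Sol (Φ q : ℂ → ℂ) (c : ℂ) (J : ℂ → ℂ) (α p F N T : ℂ × ℂ → ℂ) (x : ℂ) : Prop where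
  lab : Lab Φ q c F x
  aN : AnalyticAt ℂ N (x, 0)
  N0 : ∀ᶠ z in 𝓝 x, N (z, 0) = 0
  FN : ∀ᶠ v in 𝓝 ((x, 0) : ℂ × ℂ), F (v.1, N v) = v.2
  aT : AnalyticAt ℂ T (x, 0)
  T0 : ∀ᶠ z in 𝓝 x, T (z, 0) = z
  dT : ∀ᶠ v in 𝓝 ((x, 0) : ℂ × ℂ), J v.2 * deriv (fun θ => T (θ, v.2)) v.1 =
    -c * (N v * NZ.snc (deriv Φ v.1 * N v)) * deriv (fun w => N (v.1, w)) v.2
  aα : AnalyticAt ℂ α (x, 0)
  ap : AnalyticAt ℂ p (x, 0)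
  eα : ∀ᶠ v in 𝓝 ((x, 0) : ℂ × ℂ), α (T v + v.2 / 2, v.2) = aL Φ 1 (v.1, N v)
  ep : ∀ᶠ v in 𝓝 ((x, 0) : ℂ × ℂ), p (T v + v.2 / 2, v.2) = qL Φ q 1 (v.1, N v)

/-! ## Rows -/

/-- **REG-A**: the billiard map is analytic at every point of the axis -/
def RegA : Prop := ∀ (Φ q : ℂ → ℂ) (c x₀ : ℂ), c ≠ 0 → Crv Φ q c x₀ →
  AnalyticAt ℂ (SX Φ q c) (x₀, 0) ∧
  (∃ r > 0, ∃ M : ℝ, ∀ θ η : ℂ, ‖θ - x₀‖ < r → ‖η‖ < r →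
    ‖(SX Φ q c (θ, η)).1 - (θ + 2 * η)‖ ≤ M * ‖η‖ ^ 2 ∧ ‖(SX Φ q c (θ, η)).2 - η‖ ≤ M * ‖η‖ ^ 2) ∧
  ∀ᶠ v in 𝓝 ((x₀, 0) : ℂ × ℂ), aL Φ (-1) (SX Φ q c v) = aL Φ 1 v ∧
    qL Φ q (-1) (SX Φ q c v) = qL Φ q 1 v

/-- **REG-B1**: the Taylor coefficients of the label continue analytically to a convex set -/
def RegB1 : Prop := ∀ (Φ q : ℂ → ℂ) (c : ℂ) (V : Set ℂ) (x₁ : ℂ) (F : ℂ × ℂ → ℂ), c ≠ 0 →
  IsOpen V → Convex ℝ V → (∀ x ∈ V, Crv Φ q c x) → x₁ ∈ V → Lab Φ q c F x₁ →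
  ∃ f : ℕ → ℂ → ℂ, (∀ k, DifferentiableOn ℂ (f k) V) ∧
    ∀ᶠ z in 𝓝 x₁, ∀ k, f k z = NZ.tc F k z

/-- **REG-B2**: the label continues along convex sets (touching discs, `H367.PropD.prop_ext`) -/
def RegB2 : Prop := RegA → ∀ (Φ q : ℂ → ℂ) (c : ℂ) (V : Set ℂ) (x₁ : ℂ) (F : ℂ × ℂ → ℂ)
  (f : ℕ → ℂ → ℂ), c ≠ 0 → IsOpen V → Convex ℝ V → (∀ x ∈ V, Crv Φ q c x) → x₁ ∈ V →
  Lab Φ q c F x₁ → (∀ k, DifferentiableOn ℂ (f k) V) → (∀ᶠ z in 𝓝 x₁, ∀ k, f k z = NZ.tc F k z) →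
  ∀ x ∈ V, Lab Φ q c (NZ.Sm f) x

/-- **REG-C**: from the label to the lines -/
def RegC : Prop := ∀ (Φ q : ℂ → ℂ) (c : ℂ) (J : ℂ → ℂ) (V : Set ℂ) (x₁ : ℂ)
  (α p F N T F' : ℂ × ℂ → ℂ), c ≠ 0 → IsOpen V → Convex ℝ V → (∀ x ∈ V, Crv Φ q c x) → x₁ ∈ V →
  AnalyticAt ℂ J 0 → J 0 = 0 → HasDerivAt J (-c / 4) 0 →
  Sol Φ q c J α p F N T x₁ → (∀ x ∈ V, Lab Φ q c F' x) → F' =ᶠ[𝓝 ((x₁, 0) : ℂ × ℂ)] F →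
  ∃ α' p' N' T' : ℂ × ℂ → ℂ, (∀ x ∈ V, Sol Φ q c J α' p' F' N' T' x) ∧
    α' =ᶠ[𝓝 ((x₁, 0) : ℂ × ℂ)] α ∧ p' =ᶠ[𝓝 ((x₁, 0) : ℂ × ℂ)] p

/-- **REG-D**: the table near the real axis -/
def RegD : Prop := RegA → ∀ {h : ℝ → ℝ} {κ ρ Λ L : ℝ} {H HH lam Φ : ℂ → ℂ} {l φ : ℝ → ℝ}
  {r e : ℝ} {α p : ℂ → ℂ → ℂ} {J : ℂ → ℂ}, LD h κ ρ Λ L H HH lam Φ l φ →
  Lines κ Λ H Φ r e α p J → ∀ s : ℝ, Crv Φ (fun z => H (Φ z)) ((Λ : ℂ) ^ 3) s ∧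
    ∃ F N T : ℂ × ℂ → ℂ, Sol Φ (fun z => H (Φ z)) ((Λ : ℂ) ^ 3) J (fun u => α u.1 u.2)
      (fun u => p u.1 u.2) F N T s

/-- **REG**: the lines are jointly regular along every convex set of regularity of the curve -/
def Reg : Prop := ∀ (Φ q : ℂ → ℂ) (c : ℂ) (J : ℂ → ℂ) (V : Set ℂ) (x₁ : ℂ)
  (α p F N T : ℂ × ℂ → ℂ), c ≠ 0 → IsOpen V → Convex ℝ V → (∀ x ∈ V, Crv Φ q c x) → x₁ ∈ V →
  AnalyticAt ℂ J 0 → J 0 = 0 → HasDerivAt J (-c / 4) 0 → Sol Φ q c J α p F N T x₁ →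
  ∃ α' p' F' N' T' : ℂ × ℂ → ℂ, (∀ x ∈ V, Sol Φ q c J α' p' F' N' T' x) ∧
    α' =ᶠ[𝓝 ((x₁, 0) : ℂ × ℂ)] α ∧ p' =ᶠ[𝓝 ((x₁, 0) : ℂ × ℂ)] p

end

end Vale.Agent.P097.SC
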