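import Vale.Agent.P097.H128.Sector.Defs
import Vale.Agent.P097.H456.Fct.Defs

/-! # P097 / sector row (D): from one regular point of the top line to a larger strip

Owner: helper128.  `b` = height of meromorphy of the curve, `a + b i` a regular point of the top
line.  Rows `SecE` (joint domain), `SecF` (FCT on the sector domains), `SecG` (meromorphic end),
`SecI` (gluing), and the final statement `Top`. -/

set_option linter.all false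

open Complex Metric Filter Topology Set
open scoped ComplexConjugate

namespace Vale.Agent.P097.SC

open Vale.Agent.P097.TA Vale.Agent.P097.H202 Vale.Agent.P097.H456.Fct

noncomputable section

/-- the strip `|Im z| < b - δ` with the columns over `a + ℤ` up to the height `b + β` -/
def Om (a b β δ : ℝ) : Set ℂ :=
  {z | |z.im| < b - δ} ∪ {z | -(b - δ) < z.im ∧ z.im < b + β ∧ ∃ n : ℤ, |z.re - a - n| < β}

/-- `(t, w)`, `|w| < r`, with `t + j w` in `Om` for all `j ∈ S` -/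
def OmS (a b β δ r : ℝ) (S : Set ℕ) : Set (ℂ × ℂ) :=
  {u | ‖u.2‖ < r ∧ ∀ j ∈ S, u.1 + j * u.2 ∈ Om a b β δ}

/-- **SEC-E**: the joint domain of the lines -/
def SecE : Prop := ∀ {κ Λ : ℝ} {H Φ : ℂ → ℂ} {r e : ℝ} {α p : ℂ → ℂ → ℂ} {J : ℂ → ℂ},
  Ctx κ Λ H Φ r e α p J → ∀ {a b ρ : ℝ} {Φb qb : ℂ → ℂ}, 0 < b → 0 < ρ → ρ ≤ 1 / 4 →
  DifferentiableOn ℂ Φb (Str b ∪ ball ((a : ℂ) + b * I) ρ) →
  DifferentiableOn ℂ qb (Str b ∪ ball ((a : ℂ) + b * I) ρ) →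
  (∀ x : ℝ, Φb x = Φ x ∧ qb x = H (Φ x)) →
  ∃ αh ph : ℂ × ℂ → ℂ,
    (∀ δ, 0 < δ → δ < b → ∃ r₁ > 0, AnalyticOnNhd ℂ αh (Om a b (ρ / 2) δ ×ˢ ball 0 r₁) ∧
      AnalyticOnNhd ℂ ph (Om a b (ρ / 2) δ ×ˢ ball 0 r₁)) ∧
    (∀ t : ℝ, (αh =ᶠ[𝓝 ((t : ℂ), (0 : ℂ))] fun u => α u.1 u.2) ∧
      (ph =ᶠ[𝓝 ((t : ℂ), (0 : ℂ))] fun u => p u.1 u.2)) ∧
    (∀ z ∈ Str b, αh (z, 0) = Φb z ∧ ph (z, 0) = qb z)

/-- **SEC-P**: the sector domains are preconnected -/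
def SecP : Prop := ∀ (a b β δ r : ℝ) (S : Set ℕ), 0 < β → 0 < δ → δ < b → 0 < r →
  IsPreconnected (OmS a b β δ r S)

/-- **SEC-F**: FCT on the sector domains -/
def SecF : Prop := FCT → ∀ {κ Λ : ℝ} {H Φ : ℂ → ℂ} {r e : ℝ} {α p : ℂ → ℂ → ℂ} {J : ℂ → ℂ},
  Ctx κ Λ H Φ r e α p J → ¬ HAlg κ H → ∀ {a b β δ r₁ : ℝ} {αh ph : ℂ × ℂ → ℂ},
  0 < β → 0 < δ → δ < b → 0 < r₁ →
  AnalyticOnNhd ℂ αh (Om a b β δ ×ˢ ball 0 r₁) → AnalyticOnNhd ℂ ph (Om a b β δ ×ˢ ball 0 r₁) →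
  (∀ t : ℝ, (αh =ᶠ[𝓝 ((t : ℂ), (0 : ℂ))] fun u => α u.1 u.2) ∧
    (ph =ᶠ[𝓝 ((t : ℂ), (0 : ℂ))] fun u => p u.1 u.2)) →
  ∀ n : ℕ, ∀ j ≤ n, QuoOn (OmS a b β δ r₁ {0, n}) (fun u => exp (I * αh (u.1 + j * u.2, u.2))) ∧
    QuoOn (OmS a b β δ r₁ {0, n}) (fun u => ph (u.1 + j * u.2, u.2))

/-- local meromorphic extension of `g` (given on `|Im z| < b`) across the top point `x + b i` -/
def LExt (b : ℝ) (g : ℂ → ℂ) (x : ℝ) : Prop :=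
  ∃ (R R' : ℝ) (q : Polynomial ℂ) (F : ℂ → ℂ), 0 < R ∧ R < b ∧ R < R' ∧ q ≠ 0 ∧
    DifferentiableOn ℂ F (ball ((x : ℂ) + (b - R : ℝ) * I) R') ∧
    ∀ t ∈ ball ((x : ℂ) + (b - R : ℝ) * I) R, F t = q.eval t * g t

/-- **SEC-G**: meromorphic end at every top point (abstract) -/
def SecG : Prop := ∀ {a b β : ℝ} {f : ℂ × ℂ → ℂ}, 0 < β → β ≤ 1 → 0 < b →
  (∀ δ, 0 < δ → δ < b → ∃ r₁ > 0, AnalyticOnNhd ℂ f (Om a b β δ ×ˢ ball 0 r₁) ∧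
    ∀ n : ℕ, ∀ j ≤ n, QuoOn (OmS a b β δ r₁ {0, n}) (fun u => f (u.1 + j * u.2, u.2))) →
  ∀ x : ℝ, LExt b (fun z => f (z, 0)) x

/-- **SEC-I**: gluing of the local extensions (abstract) -/
def SecI : Prop := ∀ {b : ℝ} {g : ℂ → ℂ}, 0 < b → DifferentiableOn ℂ g (Str b) →
  (∀ z ∈ Str b, g (z + 1) = g z) → (∀ x : ℝ, LExt b g x) →
  ∃ (ε : ℝ) (G : ℂ → ℂ), 0 < ε ∧ MeromorphicOn G {z | -b < z.im ∧ z.im < b + ε} ∧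
    ∀ z ∈ Str b, G z = g z

/-- the curve `x ↦ (e^{iΦ}, H ∘ Φ)` is meromorphic on `|Im x| < b` -/
def MerStrip (H Φ : ℂ → ℂ) (b : ℝ) : Prop :=
  ∃ Z q : ℂ → ℂ, MeromorphicOn Z (Str b) ∧ MeromorphicOn q (Str b) ∧
    ∀ x : ℝ, Z x = exp (I * Φ x) ∧ q x = H (Φ x)

/-- **TOP** (final statement of the row): a meromorphic point of the top line -/
def Top : Prop := FCT → ∀ {κ Λ : ℝ} {H Φ : ℂ → ℂ} {r e : ℝ} {α p : ℂ → ℂ → ℂ} {J : ℂ → ℂ},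
  Ctx κ Λ H Φ r e α p J → ¬ HAlg κ H → ∀ {b : ℝ} {Φb qb : ℂ → ℂ}, 0 < b →
  DifferentiableOn ℂ Φb (Str b) → DifferentiableOn ℂ qb (Str b) →
  (∀ x : ℝ, Φb x = Φ x ∧ qb x = H (Φ x)) →
  -- one point of the top line, across which `e^{iΦ}`, `q` extend meromorphically
  (∃ (a ρ : ℝ) (Z' q' : ℂ → ℂ), 0 < ρ ∧ MeromorphicOn Z' (ball ((a : ℂ) + b * I) ρ) ∧
    MeromorphicOn q' (ball ((a : ℂ) + b * I) ρ) ∧
    ∀ z ∈ ball ((a : ℂ) + b * I) ρ, z.im < b → Z' z = exp (I * Φb z) ∧ q' z = qb z) →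
  ∃ ε > 0, MerStrip H Φ (b + ε)

end

end Vale.Agent.P097.SC
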