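import Vale.Agent.P097.H128.Sector.A3

/-! # P097 / SEC-E, part 1: the data depend on the germ of the curve only -/

set_option linter.all false

open Complex Metric Filter Topology Set

namespace Vale.Agent.P097.SC

open Vale.Agent.P097

variable {Φ q Φ' q' : ℂ → ℂ} {c x : ℂ}

/-- equality of the 2-jets at `z` -/
structure Eqv (Φ q Φ' q' : ℂ → ℂ) (z : ℂ) : Prop where
  a : Φ z = Φ' z
  a1 : deriv Φ z = deriv Φ' z
  a2 : deriv (deriv Φ) z = deriv (deriv Φ') z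
  b : q z = q' z
  b1 : deriv q z = deriv q' z
  b2 : deriv (deriv q) z = deriv (deriv q') z

theorem eqv_near (hΦ : Φ =ᶠ[𝓝 x] Φ') (hq : q =ᶠ[𝓝 x] q') : ∀ᶠ z in 𝓝 x, Eqv Φ q Φ' q' z := by
  filter_upwards [hΦ, hΦ.deriv, hΦ.deriv.deriv, hq, hq.deriv, hq.deriv.deriv] with z a b d e f g
  exact ⟨a, b, d, e, f, g⟩

theorem Crv.congr (h : Crv Φ q c x) (hΦ : Φ =ᶠ[𝓝 x] Φ') (hq : q =ᶠ[𝓝 x] q') :
    Crv Φ' q' c x := by
  refine ⟨h.aΦ.congr hΦ, h.aq.congr hq, ?_⟩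
  filter_upwards [eqv_near hΦ hq, h.wr] with z E hz
  rw [Wr] at hz ⊢
  rw [← E.a1, ← E.a2, ← E.b, ← E.b1, ← E.b2]
  exact hz

theorem aL_congr {v : ℂ × ℂ} (s : ℂ) (E : Eqv Φ q Φ' q' v.1) : aL Φ s v = aL Φ' s v := by
  rw [aL, aL, E.a, E.a1]

theorem qL_congr {v : ℂ × ℂ} (s : ℂ) (E : Eqv Φ q Φ' q' v.1) : qL Φ q s v = qL Φ' q' s v := by
  rw [qL, qL, E.b, E.b1, E.a1]

theorem Xr_mem (v : ℂ × ℂ) : Xr Φ q c v ∈ ball (2 : ℂ) (1 / 4) := by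
  by_cases h : ∃ x, x ∈ ball (2 : ℂ) (1 / 4) ∧ Kt Φ q c v x = 0
  · rw [Xr, dif_pos h]
    exact h.choose_spec.1
  · rw [Xr, dif_neg h]
    exact mem_ball_self (by norm_num)

theorem SX_congr (hΦ : Φ =ᶠ[𝓝 x] Φ') (hq : q =ᶠ[𝓝 x] q') :
    ∀ᶠ v in 𝓝 ((x, 0) : ℂ × ℂ), SX Φ q c v = SX Φ' q' c v := by
  obtain ⟨r, hr, hE⟩ := Metric.eventually_nhds_iff_ball.1 (eqv_near hΦ hq)
  refine NZ.eventually_of_polydisc (r := r / 2) (s := r / 8) (by positivity) (by positivity)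
    fun θ hθ η hη => ?_
  rw [mem_ball_iff_norm] at hθ
  rw [mem_ball_zero_iff] at hη
  have E0 : Eqv Φ q Φ' q' θ := hE θ (by rw [mem_ball_iff_norm]; linarith)
  have hy : ∀ y ∈ ball (2 : ℂ) (1 / 4), Eqv Φ q Φ' q' (θ + η * y) := by
    intro y hy
    apply hE
    rw [mem_ball_iff_norm] at hy ⊢
    have h1 : ‖y‖ ≤ 3 := by
      have := norm_add_le (y - 2) 2
      rw [sub_add_cancel] at this
      have h2 : ‖(2 : ℂ)‖ = 2 := by simp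
      linarith
    have h3 : θ + η * y - x = (θ - x) + η * y := by ring
    rw [h3]
    have h4 := norm_add_le (θ - x) (η * y)
    rw [norm_mul] at h4
    have h5 : ‖η‖ * ‖y‖ ≤ r / 8 * 3 := mul_le_mul hη.le h1 (norm_nonneg _) (by positivity)
    linarith
  have hK : (fun y => y ∈ ball (2 : ℂ) (1 / 4) ∧ Kt Φ q c (θ, η) y = 0) =
      fun y => y ∈ ball (2 : ℂ) (1 / 4) ∧ Kt Φ' q' c (θ, η) y = 0 := by
    funext y
    refine propext (and_congr_right fun h => ?_)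
    have E1 := hy y h
    have e1 : Gi Φ q (θ, η) (θ + η * y) = Gi Φ' q' (θ, η) (θ + η * y) := by
      rw [Gi, Gi, aL_congr (v := (θ, η)) 1 E0, qL_congr (v := (θ, η)) 1 E0, E1.a, E1.a1, E1.b, E1.b1]
    rw [Kt, Kt, e1]
  have hX : Xr Φ q c (θ, η) = Xr Φ' q' c (θ, η) := by
    rw [Xr, Xr]
    classical
    have hcc : ∀ {P Q : ℂ → Prop}, P = Q →
        (if h : ∃ x, P x then h.choose else 2) = (if h : ∃ x, Q x then h.choose else (2 : ℂ)) := by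
      intro P Q h
      subst h
      rfl
    have := hcc hK
    simpa using this
  have hT : T1 Φ q c (θ, η) = T1 Φ' q' c (θ, η) := by rw [T1, T1, hX]
  have ET : Eqv Φ q Φ' q' (T1 Φ q c (θ, η)) := hy _ (Xr_mem _)
  have hD : D1 Φ q c (θ, η) = D1 Φ' q' c (θ, η) := by
    rw [D1, D1, ← hT, ← ET.a, aL_congr (v := (θ, η)) 1 E0]
  have hB : B1 Φ q c (θ, η) = B1 Φ' q' c (θ, η) := by
    rw [B1, B1, ← hT, ← hD, ← ET.b, qL_congr (v := (θ, η)) 1 E0]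
  rw [SX, SX, ← hT, ← hD, ← hB, ← ET.a1, ← ET.a2, ← ET.b, ← ET.b2]

variable {J : ℂ → ℂ} {α p F N T : ℂ × ℂ → ℂ}

theorem Lab.congr (h : Lab Φ q c F x) (hΦ : Φ =ᶠ[𝓝 x] Φ') (hq : q =ᶠ[𝓝 x] q') :
    Lab Φ' q' c F x := by
  refine ⟨h.an, h.odd, ?_, h.nrm⟩
  filter_upwards [h.inv, SX_congr (c := c) hΦ hq] with v a b
  rw [← b, a]

theorem eqv_fst (hΦ : Φ =ᶠ[𝓝 x] Φ') (hq : q =ᶠ[𝓝 x] q') :
    ∀ᶠ v in 𝓝 ((x, 0) : ℂ × ℂ), Eqv Φ q Φ' q' v.1 := by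
  have h : Tendsto (fun v : ℂ × ℂ => v.1) (𝓝 (x, 0)) (𝓝 x) := continuous_fst.tendsto _
  exact h.eventually (eqv_near hΦ hq)

theorem Sol.congr (h : Sol Φ q c J α p F N T x) (hΦ : Φ =ᶠ[𝓝 x] Φ') (hq : q =ᶠ[𝓝 x] q') :
    Sol Φ' q' c J α p F N T x := by
  refine ⟨h.lab.congr hΦ hq, h.aN, h.N0, h.FN, h.aT, h.T0, ?_, h.aα, h.ap, ?_, ?_⟩
  · filter_upwards [h.dT, eqv_fst hΦ hq] with v a E
    rw [← E.a1]
    exact a
  · filter_upwards [h.eα, eqv_fst hΦ hq] with v a E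
    rw [a, aL_congr (v := (v.1, N v)) 1 E]
  · filter_upwards [h.ep, eqv_fst hΦ hq] with v a E
    rw [a, qL_congr (v := (v.1, N v)) 1 E]

end Vale.Agent.P097.SC
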