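import Vale.Agent.P097.H128.Sector.Defs2
import Vale.Agent.P097.H128.NZ.TC

/-! # P097 / SEC-E, part 2: extension of a periodic jointly analytic function to the columns -/

set_option linter.all false

open Complex Metric Filter Topology Set
open scoped ComplexConjugate

namespace Vale.Agent.P097.SC

open Vale.Agent.P097 Vale.Agent.P097.TA Vale.Agent.P097.H202

theorem int_unique {z₀ z : ℂ} {ρ : ℝ} (hρ : ρ ≤ 1 / 4) {n m : ℤ} (hn : z - n ∈ ball z₀ ρ)
    (hm : z - m ∈ ball z₀ ρ) : n = m := by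
  rw [mem_ball] at hn hm
  have h1 : dist (z - n) (z - m) < 1 / 2 := by
    have := dist_triangle_right (z - n) (z - m) z₀
    linarith
  rw [dist_eq_norm] at h1
  have h2 : z - (n : ℂ) - (z - m) = ((m - n : ℤ) : ℂ) := by push_cast; ring
  rw [h2, Complex.norm_intCast] at h1
  have h3 : |m - n| < 1 := by
    have : (|m - n| : ℝ) < 1 := by
      have h4 : (|(m : ℝ) - n|) < 1 / 2 := by
        have := h1
        push_cast at this
        exact this
      linarith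
    exact_mod_cast this
  have := Int.abs_lt_one_iff.1 h3
  omega

section
variable {a b ρ : ℝ} {f1 f2 : ℂ × ℂ → ℂ}

open Classical in
/-- coefficients of the extension -/
noncomputable def cE (a b ρ : ℝ) (f1 f2 : ℂ × ℂ → ℂ) (k : ℕ) (z : ℂ) : ℂ :=
  if z ∈ Str b then NZ.tc f1 k z
  else if h : ∃ n : ℤ, z - n ∈ ball ((a : ℂ) + b * I) ρ then NZ.tc f2 k (z - h.choose) else 0

theorem Str_one {z : ℂ} : z + 1 ∈ Str b ↔ z ∈ Str b := by
  rw [mem_Str, mem_Str, add_im, one_im, add_zero]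

theorem Str_int {z : ℂ} (n : ℤ) : z + n ∈ Str b ↔ z ∈ Str b := by
  rw [mem_Str, mem_Str, add_im, intCast_im, add_zero]

theorem Str_sub_int {z : ℂ} (n : ℤ) : z - n ∈ Str b ↔ z ∈ Str b := by
  rw [mem_Str, mem_Str, sub_im, intCast_im, sub_zero]

/-- hypotheses of the extension -/
structure EH (a b ρ : ℝ) (f1 f2 : ℂ × ℂ → ℂ) : Prop where
  hb : 0 < b
  hρ : 0 < ρ
  hρ4 : ρ ≤ 1 / 4
  h1 : ∀ z ∈ Str b, AnalyticAt ℂ f1 (z, 0)
  h2 : ∀ z ∈ ball ((a : ℂ) + b * I) ρ, AnalyticAt ℂ f2 (z, 0)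
  e : ∃ x₂ ∈ Str b, x₂ ∈ ball ((a : ℂ) + b * I) ρ ∧ f2 =ᶠ[𝓝 ((x₂, 0) : ℂ × ℂ)] f1
  hp : ∀ᶠ u in 𝓝 ((0, 0) : ℂ × ℂ), f1 (u.1 + 1, u.2) = f1 u

variable (E : EH a b ρ f1 f2)
include E

theorem EH.tc1_an (k : ℕ) : AnalyticOnNhd ℂ (NZ.tc f1 k) (Str b) := fun z hz =>
  NZ.analyticAt_tc (E.h1 z hz) k

theorem EH.tc2_an (k : ℕ) : AnalyticOnNhd ℂ (NZ.tc f2 k) (ball ((a : ℂ) + b * I) ρ) := fun z hz =>
  NZ.analyticAt_tc (E.h2 z hz) k

theorem EH.per1 (k : ℕ) {z : ℂ} (hz : z ∈ Str b) : NZ.tc f1 k (z + 1) = NZ.tc f1 k z := by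
  have h1 : AnalyticOnNhd ℂ (fun z => NZ.tc f1 k (z + 1)) (Str b) := by
    intro z hz
    exact (E.tc1_an k (z + 1) (Str_one.2 hz)).comp_of_eq (analyticAt_id.add analyticAt_const) rfl
  have h0 : (0 : ℂ) ∈ Str b := by rw [mem_Str]; simpa using E.hb
  have h3 : ∀ᶠ z' in 𝓝 (0 : ℂ), NZ.tc f1 k (z' + 1) = NZ.tc f1 k z' := by
    filter_upwards [NZ.tc_congr E.hp] with z' hz'
    exact hz' k
  exact h1.eqOn_of_preconnected_of_eventuallyEq (E.tc1_an k) (convex_Str b).isPreconnected h0 h3 hz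

theorem EH.perN (k : ℕ) {z : ℂ} (hz : z ∈ Str b) (n : ℤ) :
    NZ.tc f1 k (z + n) = NZ.tc f1 k z := by
  induction n using Int.induction_on with
  | zero => simp
  | succ i ih =>
    have h1 := E.per1 k (z := z + (i : ℤ)) ((Str_int _).2 hz)
    rw [← ih, ← h1]
    congr 1
    push_cast
    ring
  | pred i ih =>
    have h1 := E.per1 k (z := z + ((-(i : ℤ) - 1 : ℤ) : ℂ)) ((Str_int _).2 hz)
    rw [← ih, ← h1]
    congr 1
    push_cast
    ring

theorem EH.agree (k : ℕ) {z : ℂ} (hz : z ∈ Str b) (hz' : z ∈ ball ((a : ℂ) + b * I) ρ) :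
    NZ.tc f2 k z = NZ.tc f1 k z := by
  obtain ⟨x₂, hx, hx', e⟩ := E.e
  have hc : Convex ℝ (Str b ∩ ball ((a : ℂ) + b * I) ρ) := (convex_Str b).inter (convex_ball _ _)
  have h3 : ∀ᶠ z' in 𝓝 x₂, NZ.tc f2 k z' = NZ.tc f1 k z' := by
    filter_upwards [NZ.tc_congr e] with z' hz'
    exact hz' k
  exact ((E.tc2_an k).mono inter_subset_right).eqOn_of_preconnected_of_eventuallyEq
    ((E.tc1_an k).mono inter_subset_left) hc.isPreconnected ⟨hx, hx'⟩ h3 ⟨hz, hz'⟩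

theorem EH.c_str {z₀ : ℂ} (hz : z₀ ∈ Str b) :
    ∀ᶠ z in 𝓝 z₀, ∀ k, cE a b ρ f1 f2 k z = NZ.tc f1 k z := by
  filter_upwards [(isOpen_Str b).mem_nhds hz] with z hz k
  rw [cE, if_pos hz]

theorem EH.c_ball {z₀ : ℂ} {n : ℤ} (hz : z₀ - n ∈ ball ((a : ℂ) + b * I) ρ) :
    ∀ᶠ z in 𝓝 z₀, ∀ k, cE a b ρ f1 f2 k z = NZ.tc f2 k (z - n) := by
  have ho : IsOpen {z : ℂ | z - n ∈ ball ((a : ℂ) + b * I) ρ} :=
    isOpen_ball.preimage (by fun_prop)
  filter_upwards [ho.mem_nhds hz] with z hz k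
  by_cases hs : z ∈ Str b
  · rw [cE, if_pos hs, E.agree k ((Str_sub_int n).2 hs) hz]
    have := E.perN k ((Str_sub_int n).2 hs) n
    rw [sub_add_cancel] at this
    exact this
  · have hex : ∃ n : ℤ, z - n ∈ ball ((a : ℂ) + b * I) ρ := ⟨n, hz⟩
    rw [cE, if_neg hs, dif_pos hex, int_unique E.hρ4 hex.choose_spec hz]

theorem EH.c_per (k : ℕ) (z : ℂ) : cE a b ρ f1 f2 k (z + 1) = cE a b ρ f1 f2 k z := by
  by_cases hs : z ∈ Str b
  · rw [cE, cE, if_pos hs, if_pos (Str_one.2 hs), E.per1 k hs]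
  · have hs' : z + 1 ∉ Str b := fun h => hs (Str_one.1 h)
    rw [cE, cE, if_neg hs, if_neg hs']
    by_cases hex : ∃ n : ℤ, z - n ∈ ball ((a : ℂ) + b * I) ρ
    · have hex' : ∃ n : ℤ, z + 1 - n ∈ ball ((a : ℂ) + b * I) ρ := by
        obtain ⟨n, hn⟩ := hex
        refine ⟨n + 1, ?_⟩
        have : z + 1 - ((n + 1 : ℤ) : ℂ) = z - n := by push_cast; ring
        rw [this]
        exact hn
      rw [dif_pos hex, dif_pos hex']
      have h1 := hex'.choose_spec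
      have e1 : z + 1 - (hex'.choose : ℂ) = z - ((hex'.choose - 1 : ℤ) : ℂ) := by push_cast; ring
      rw [e1] at h1 ⊢
      rw [int_unique E.hρ4 h1 hex.choose_spec]
    · have hex' : ¬ ∃ n : ℤ, z + 1 - n ∈ ball ((a : ℂ) + b * I) ρ := by
        rintro ⟨n, hn⟩
        apply hex
        refine ⟨n - 1, ?_⟩
        have : z - ((n - 1 : ℤ) : ℂ) = z + 1 - n := by push_cast; ring
        rw [this]
        exact hn
      rw [dif_neg hex, dif_neg hex']

/-- the extension -/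
theorem EH.germ1 {z₀ : ℂ} (hz : z₀ ∈ Str b) :
    NZ.Sm (cE a b ρ f1 f2) =ᶠ[𝓝 ((z₀, 0) : ℂ × ℂ)] f1 := by
  filter_upwards [NZ.Sm_congr (E.c_str hz), NZ.Sm_tc (E.h1 z₀ hz)] with p h1 h2
  rw [h1, h2]

theorem EH.an_ball {z₀ : ℂ} {n : ℤ} (hz : z₀ - n ∈ ball ((a : ℂ) + b * I) ρ) :
    AnalyticAt ℂ (NZ.Sm (cE a b ρ f1 f2)) (z₀, 0) := by
  have h2 : AnalyticAt ℂ (fun u : ℂ × ℂ => f2 (u.1 - n, u.2)) (z₀, 0) :=
    (E.h2 _ hz).comp_of_eq ((analyticAt_fst.sub analyticAt_const).prod analyticAt_snd) rfl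
  have h3 : ∀ᶠ z in 𝓝 z₀, ∀ k, cE a b ρ f1 f2 k z =
      NZ.tc (fun u : ℂ × ℂ => f2 (u.1 - n, u.2)) k z := E.c_ball hz
  refine h2.congr ?_
  filter_upwards [NZ.Sm_congr h3, NZ.Sm_tc h2] with p h1 h2
  rw [h1, h2]

theorem EH.sm_per (z w : ℂ) :
    NZ.Sm (cE a b ρ f1 f2) (z + 1, w) = NZ.Sm (cE a b ρ f1 f2) (z, w) := by
  simp only [NZ.Sm, E.c_per]

theorem EH.sm_perN (z w : ℂ) (n : ℤ) :
    NZ.Sm (cE a b ρ f1 f2) (z + n, w) = NZ.Sm (cE a b ρ f1 f2) (z, w) := by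
  induction n using Int.induction_on with
  | zero => simp
  | succ i ih =>
    rw [← ih, ← E.sm_per (z + (i : ℤ)) w]
    congr 2
    push_cast
    ring
  | pred i ih =>
    rw [← ih, ← E.sm_per (z + ((-(i : ℤ) - 1 : ℤ) : ℂ)) w]
    congr 2
    push_cast
    ring

/-- uniform radius -/
theorem EH.unif {δ : ℝ} (hδ : 0 < δ) (hδb : δ < b) : ∃ r₁ > 0,
    AnalyticOnNhd ℂ (NZ.Sm (cE a b ρ f1 f2)) (Om a b (ρ / 2) δ ×ˢ ball 0 r₁) := by
  have hb := E.hb
  have hρ := E.hρ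
  have hρ4 := E.hρ4
  set K : Set ℂ := (Icc (a - 1 / 2) (a + 1 / 2) ×ℂ Icc (-(b - δ)) (b - δ)) ∪
    (Icc (a - ρ / 2) (a + ρ / 2) ×ℂ Icc (-(b - δ)) (b + ρ / 2)) with hK
  have cK : IsCompact K := (isCompact_Icc.reProdIm isCompact_Icc).union
    (isCompact_Icc.reProdIm isCompact_Icc)
  have hKan : ∀ z ∈ K, AnalyticAt ℂ (NZ.Sm (cE a b ρ f1 f2)) (z, 0) := by
    rintro z (hz | hz)
    · rw [mem_reProdIm] at hz
      have hs : z ∈ Str b := by
        rw [mem_Str, abs_lt]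
        constructor
        · linarith [hz.2.1]
        · linarith [hz.2.2]
      exact (E.h1 z hs).congr (E.germ1 hs).symm
    · rw [mem_reProdIm] at hz
      by_cases hzb : z.im < b
      · have hs : z ∈ Str b := by
          rw [mem_Str, abs_lt]
          exact ⟨by linarith [hz.2.1], hzb⟩
        exact (E.h1 z hs).congr (E.germ1 hs).symm
      · have hB : z - ((0 : ℤ) : ℂ) ∈ ball ((a : ℂ) + b * I) ρ := by
          rw [Int.cast_zero, sub_zero, mem_ball_iff_norm]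
          have h1 : |(z - ((a : ℂ) + b * I)).re| ≤ ρ / 2 := by
            rw [abs_le]
            simp only [sub_re, add_re, ofReal_re, mul_re, I_re, mul_zero, ofReal_im, I_im, mul_one,
              sub_self, add_zero]
            exact ⟨by linarith [hz.1.1], by linarith [hz.1.2]⟩
          have h2 : |(z - ((a : ℂ) + b * I)).im| ≤ ρ / 2 := by
            rw [abs_le]
            simp only [sub_im, add_im, ofReal_im, mul_im, I_re, mul_zero, ofReal_re, I_im, mul_one,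
              zero_add, add_zero]
            push Not at hzb
            exact ⟨by linarith, by linarith [hz.2.2]⟩
          have h3 : ‖z - ((a : ℂ) + b * I)‖ ^ 2 ≤ ρ ^ 2 / 2 := by
            rw [← Complex.normSq_eq_norm_sq, Complex.normSq_apply]
            have h4 := abs_le.1 h1
            have h5 := abs_le.1 h2
            nlinarith
          have h6 : ‖z - ((a : ℂ) + b * I)‖ ^ 2 < ρ ^ 2 := by nlinarith
          exact lt_of_pow_lt_pow_left₀ 2 hρ.le h6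
        exact E.an_ball hB
  have h3 : ∀ z ∈ K, ∀ᶠ u in 𝓝 ((0 : ℂ), z), AnalyticAt ℂ (NZ.Sm (cE a b ρ f1 f2)) (u.2, u.1) := by
    intro z hz
    have hsw : Tendsto (fun u : ℂ × ℂ => ((u.2, u.1) : ℂ × ℂ)) (𝓝 ((0 : ℂ), z)) (𝓝 (z, 0)) := by
      have : Continuous (fun u : ℂ × ℂ => ((u.2, u.1) : ℂ × ℂ)) := by fun_prop
      exact this.tendsto _
    exact hsw.eventually (hKan z hz).eventually_analyticAt
  have h4 := cK.eventually_forall_of_forall_eventually (x₀ := (0 : ℂ))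
    (P := fun w z => AnalyticAt ℂ (NZ.Sm (cE a b ρ f1 f2)) (z, w)) h3
  obtain ⟨r₁, hr₁, h5⟩ := Metric.eventually_nhds_iff_ball.1 h4
  refine ⟨r₁, hr₁, ?_⟩
  rintro ⟨z, w⟩ ⟨hz, hw⟩
  -- reduce the real part
  obtain ⟨n, hn⟩ : ∃ n : ℤ, |z.re - n - a| ≤ 1 / 2 := by
    refine ⟨round (z.re - a), ?_⟩
    have := abs_sub_round (z.re - a)
    rwa [show z.re - a - round (z.re - a) = z.re - round (z.re - a) - a by ring] at this
  have hzK : z - n ∈ K := by
    rcases hz with hz | hz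
    · left
      rw [mem_reProdIm]
      have hz' : |z.im| < b - δ := hz
      rw [abs_lt] at hz'
      rw [abs_le] at hn
      simp only [sub_re, intCast_re, sub_im, intCast_im, sub_zero]
      exact ⟨⟨by linarith [hn.1], by linarith [hn.2]⟩, ⟨by linarith [hz'.1], by linarith [hz'.2]⟩⟩
    · right
      obtain ⟨i1, i2, m, hm⟩ := hz
      have hmn : m = n := by
        have h6 : |(m : ℝ) - n| < 1 := by
          rw [abs_lt] at hm ⊢
          rw [abs_le] at hn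
          constructor
          · linarith [hn.1, hn.2, hm.1, hm.2]
          · linarith [hn.1, hn.2, hm.1, hm.2]
        have h7 : |m - n| < 1 := by exact_mod_cast h6
        have := Int.abs_lt_one_iff.1 h7
        omega
      subst hmn
      rw [mem_reProdIm]
      rw [abs_lt] at hm
      simp only [sub_re, intCast_re, sub_im, intCast_im, sub_zero]
      exact ⟨⟨by linarith [hm.1], by linarith [hm.2]⟩, ⟨by linarith, by linarith⟩⟩
  have h6 := h5 w hw (z - n) hzK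
  have h7 : AnalyticAt ℂ (fun u : ℂ × ℂ => NZ.Sm (cE a b ρ f1 f2) (u.1 - n, u.2)) (z, w) :=
    h6.comp_of_eq ((analyticAt_fst.sub analyticAt_const).prod analyticAt_snd) rfl
  have h8 : (fun u : ℂ × ℂ => NZ.Sm (cE a b ρ f1 f2) (u.1 - n, u.2)) =
      NZ.Sm (cE a b ρ f1 f2) := by
    funext u
    have := E.sm_perN (u.1 - n) u.2 n
    rw [sub_add_cancel] at this
    exact this.symm
  rw [h8] at h7
  exact h7

end

end Vale.Agent.P097.SC
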