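import Vale.Agent.P097.H128.Sector.E1
import Vale.Agent.P097.H128.Sector.E2

/-! # P097 / SEC-E, part 3: the joint domain of the lines -/

set_option linter.all false

open Complex Metric Filter Topology Set
open scoped ComplexConjugate

namespace Vale.Agent.P097.SC

open Vale.Agent.P097 Vale.Agent.P097.TA Vale.Agent.P097.H202 Vale.Agent.P097.H456.Fct

/-- identity theorem from the real axis -/
theorem eventuallyEq_of_real {f g : ℂ → ℂ} {s : ℝ} (hf : AnalyticAt ℂ f s)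
    (hg : AnalyticAt ℂ g s) (h : ∀ x : ℝ, f x = g x) : f =ᶠ[𝓝 (s : ℂ)] g := by
  refine (hf.frequently_eq_iff_eventually_eq hg).1 ?_
  have h1 : Tendsto (fun x : ℝ => (x : ℂ)) (𝓝[≠] s) (𝓝[≠] (s : ℂ)) := by
    refine tendsto_nhdsWithin_of_tendsto_nhds_of_eventually_within _ ?_ ?_
    · exact (continuous_ofReal.tendsto s).mono_left nhdsWithin_le_nhds
    · filter_upwards [self_mem_nhdsWithin] with x hx
      intro h2
      exact hx (ofReal_injective h2)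
  refine h1.frequently ?_
  exact Filter.Frequently.of_forall h

/-- assembly of **REG** -/
theorem reg_of (A : RegA) (B1 : RegB1) (B2 : RegB2) (C : RegC) : Reg := by
  intro Φ q c J V x₁ α p F N T hc oV cV hV hx₁ aJ J0 dJ S
  obtain ⟨f, df, ef⟩ := B1 Φ q c V x₁ F hc oV cV hV hx₁ S.lab
  have hL := B2 A Φ q c V x₁ F f hc oV cV hV hx₁ S.lab df ef
  have hF : NZ.Sm f =ᶠ[𝓝 ((x₁, 0) : ℂ × ℂ)] F := by
    filter_upwards [NZ.Sm_congr ef, NZ.Sm_tc S.lab.an] with v a b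
    rw [a, b]
  obtain ⟨α', p', N', T', S', e1, e2⟩ := C Φ q c J V x₁ α p F N T (NZ.Sm f) hc oV cV hV hx₁ aJ J0 dJ
    S hL hF
  exact ⟨α', p', NZ.Sm f, N', T', S', e1, e2⟩

theorem Sol.axis {Φ q : ℂ → ℂ} {c x : ℂ} {J : ℂ → ℂ} {α p F N T : ℂ × ℂ → ℂ}
    (S : Sol Φ q c J α p F N T x) : α (x, 0) = Φ x ∧ p (x, 0) = q x := by
  have h1 := S.eα.self_of_nhds
  have h2 := S.ep.self_of_nhds
  have h3 := S.T0.self_of_nhds
  have h4 := S.N0.self_of_nhds
  simp only [h3, h4, zero_div, add_zero] at h1 h2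
  constructor
  · rw [h1]; simp [aL]
  · rw [h2]; simp [qL]

/-- **SEC-E** -/
theorem secE_of (A : RegA) (D : RegD) (R : Reg) : SecE := by
  intro κ Λ H Φ r e α p J C a b ρ Φb qb hb hρ hρ4 dΦ dq hreal
  obtain ⟨h, ρ', L, HH, lam, l, φ, LDh⟩ := C.ld
  have Ln := C.ln
  set c : ℂ := (Λ : ℂ) ^ 3 with hcdef
  have hΛ := LDh.Λ0
  have hc : c ≠ 0 := pow_ne_zero _ (by exact_mod_cast hΛ.ne')
  have hD := D A LDh Ln
  set z₀ : ℂ := (a : ℂ) + b * I with hz₀
  set U : Set ℂ := Str b ∪ ball z₀ ρ with hU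
  have oU : IsOpen U := (isOpen_Str b).union isOpen_ball
  have aΦ : ∀ z ∈ U, AnalyticAt ℂ Φb z := fun z hz => dΦ.analyticAt (oU.mem_nhds hz)
  have aq : ∀ z ∈ U, AnalyticAt ℂ qb z := fun z hz => dq.analyticAt (oU.mem_nhds hz)
  have hreU : ∀ s : ℝ, (s : ℂ) ∈ Str b := fun s => by
    rw [mem_Str, ofReal_im, abs_zero]
    exact hb
  -- germs at real points
  have gΦ : ∀ s : ℝ, Φ =ᶠ[𝓝 (s : ℂ)] Φb := fun s =>
    eventuallyEq_of_real (hD s).1.aΦ (aΦ s (Or.inl (hreU s))) fun x => (hreal x).1.symm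
  have gq : ∀ s : ℝ, (fun z => H (Φ z)) =ᶠ[𝓝 (s : ℂ)] qb := fun s =>
    eventuallyEq_of_real (hD s).1.aq (aq s (Or.inl (hreU s))) fun x => (hreal x).2.symm
  -- a point in the intersection
  set m : ℝ := min ρ b / 2 with hm
  have hm0 : 0 < m := by
    have := lt_min hρ hb
    positivity
  have hmρ : m < ρ := by
    have := min_le_left ρ b
    linarith
  have hmb : m < b := by
    have := min_le_right ρ b
    linarith
  set x₂ : ℂ := (a : ℂ) + (b - m : ℝ) * I with hx₂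
  have hx₂s : x₂ ∈ Str b := by
    rw [mem_Str, hx₂]
    simp only [add_im, ofReal_im, mul_im, I_re, mul_zero, ofReal_re, I_im, mul_one, zero_add,
      add_zero]
    rw [abs_of_pos (by linarith)]
    linarith
  have hx₂b : x₂ ∈ ball z₀ ρ := by
    rw [mem_ball_iff_norm, hx₂, hz₀]
    have : (a : ℂ) + (b - m : ℝ) * I - ((a : ℂ) + b * I) = ((-m : ℝ) : ℂ) * I := by
      push_cast; ring
    rw [this, norm_mul, norm_I, mul_one, Complex.norm_real, Real.norm_eq_abs, abs_neg,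
      abs_of_pos hm0]
    exact hmρ
  have pU : IsPreconnected U := IsPreconnected.union x₂ hx₂s hx₂b (convex_Str b).isPreconnected
    (convex_ball _ _).isPreconnected
  -- Wronskian identity
  have h0U : (((0 : ℝ) : ℂ)) ∈ U := Or.inl (hreU 0)
  have aW : AnalyticOnNhd ℂ (Wr Φb qb) U := fun z hz =>
    (((aq z hz).deriv.deriv.mul (aΦ z hz).deriv).sub ((aq z hz).deriv.mul (aΦ z hz).deriv.deriv)).add
      ((aq z hz).mul ((aΦ z hz).deriv.pow 3))
  have W0 : Wr Φb qb =ᶠ[𝓝 (((0 : ℝ) : ℂ))] fun _ => c := ((hD 0).1.congr (gΦ 0) (gq 0)).wr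
  have hW : ∀ z ∈ U, Wr Φb qb z = c := fun z hz =>
    aW.eqOn_of_preconnected_of_eventuallyEq analyticOnNhd_const pU h0U W0 hz
  have crv : ∀ z ∈ U, Crv Φb qb c z := by
    intro z hz
    refine ⟨aΦ z hz, aq z hz, ?_⟩
    filter_upwards [oU.mem_nhds hz] with y hy
    exact hW y hy
  -- the jacobian
  have aJ : AnalyticAt ℂ J 0 := Ln.jJ.analyticAt (isOpen_ball.mem_nhds (mem_ball_self Ln.he))
  have dJ : HasDerivAt J (-c / 4) 0 := Ln.J'
  -- continuation on the strip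
  obtain ⟨F, N, T, S0⟩ := (hD 0).2
  have S0' := S0.congr (gΦ 0) (gq 0)
  obtain ⟨α1, p1, F1, N1, T1', S1, eα1, ep1⟩ := R Φb qb c J (Str b) ((0 : ℝ) : ℂ) _ _ F N T hc
    (isOpen_Str b) (convex_Str b) (fun x hx => crv x (Or.inl hx)) (hreU 0) aJ Ln.J0 dJ S0'
  obtain ⟨α2, p2, F2, N2, T2, S2, eα2, ep2⟩ := R Φb qb c J (ball z₀ ρ) x₂ α1 p1 F1 N1 T1' hc
    isOpen_ball (convex_ball _ _) (fun x hx => crv x (Or.inr hx)) hx₂b aJ Ln.J0 dJ (S1 x₂ hx₂s)
  -- agreement with the given lines at all real points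
  set s₀ : ℝ := min r b with hs₀
  have hs₀0 : 0 < s₀ := lt_min Ln.hr hb
  have oW : IsOpen (WW 0 r e) := isOpen_WW 0 r e
  have memW : ∀ {z w : ℂ}, |z.im| < r → ‖w‖ < e → (z, w) ∈ WW 0 r e := by
    intro z w h1 h2
    exact ⟨h2, by simpa using h1⟩
  have anα : ∀ z : ℂ, |z.im| < r → AnalyticAt ℂ (fun u : ℂ × ℂ => α u.1 u.2) (z, 0) := fun z hz =>
    Hol.analyticAt_of_differentiableOn oW Ln.jα (memW hz (by simpa using Ln.he))
  have anp : ∀ z : ℂ, |z.im| < r → AnalyticAt ℂ (fun u : ℂ × ℂ => p u.1 u.2) (z, 0) := fun z hz =>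
    Hol.analyticAt_of_differentiableOn oW Ln.jp (memW hz (by simpa using Ln.he))
  have gen : ∀ {f g : ℂ × ℂ → ℂ}, (∀ z ∈ Str b, AnalyticAt ℂ f (z, 0)) →
      (∀ z : ℂ, |z.im| < r → AnalyticAt ℂ g (z, 0)) →
      f =ᶠ[𝓝 ((((0 : ℝ) : ℂ), (0 : ℂ)))] g → ∀ t : ℝ, f =ᶠ[𝓝 ((t : ℂ), (0 : ℂ))] g := by
    intro f g hf hg h0 t
    have hk : ∀ k, ∀ z ∈ Str s₀, NZ.tc f k z = NZ.tc g k z := by
      intro k
      have a1 : AnalyticOnNhd ℂ (NZ.tc f k) (Str s₀) := fun z hz =>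
        NZ.analyticAt_tc (hf z (Str_mono (min_le_right _ _) hz)) k
      have a2 : AnalyticOnNhd ℂ (NZ.tc g k) (Str s₀) := fun z hz =>
        NZ.analyticAt_tc (hg z ((mem_Str).1 (Str_mono (min_le_left _ _) hz))) k
      have a3 : NZ.tc f k =ᶠ[𝓝 (((0 : ℝ) : ℂ))] NZ.tc g k := by
        filter_upwards [NZ.tc_congr h0] with z hz
        exact hz k
      have h0s : (((0 : ℝ) : ℂ)) ∈ Str s₀ := by
        rw [mem_Str, ofReal_im, abs_zero]
        exact hs₀0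
      exact fun z hz => a1.eqOn_of_preconnected_of_eventuallyEq a2
        (convex_Str s₀).isPreconnected h0s a3 hz
    have hts : (t : ℂ) ∈ Str s₀ := by
      rw [mem_Str, ofReal_im, abs_zero]
      exact hs₀0
    have h1 : ∀ᶠ z in 𝓝 (t : ℂ), ∀ k, NZ.tc f k z = NZ.tc g k z := by
      filter_upwards [(isOpen_Str s₀).mem_nhds hts] with z hz k
      exact hk k z hz
    have htr : |((t : ℂ)).im| < r := by
      rw [ofReal_im, abs_zero]
      exact Ln.hr
    filter_upwards [NZ.Sm_congr h1, NZ.Sm_tc (hf t (hreU t)), NZ.Sm_tc (hg t htr)] with v a b d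
    rw [← b, a, d]
  have hα1 := gen (fun z hz => (S1 z hz).aα) anα eα1
  have hp1 := gen (fun z hz => (S1 z hz).ap) anp ep1
  -- periodicity near `0`
  have cshift : Tendsto (fun u : ℂ × ℂ => ((u.1 + 1, u.2) : ℂ × ℂ)) (𝓝 (0, 0))
      (𝓝 (((1 : ℝ) : ℂ), 0)) := by
    have h1 : Continuous (fun u : ℂ × ℂ => ((u.1 + 1, u.2) : ℂ × ℂ)) := by fun_prop
    have h2 := h1.tendsto ((0, 0) : ℂ × ℂ)
    simpa using h2
  have hW00 : ∀ᶠ u in 𝓝 ((0, 0) : ℂ × ℂ), (u.1, u.2) ∈ WW 0 r e := by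
    have : ((0, 0) : ℂ × ℂ) ∈ WW 0 r e := memW (by simpa using Ln.hr) (by simpa using Ln.he)
    filter_upwards [oW.mem_nhds this] with u hu using hu
  have h00 : ((((0 : ℝ) : ℂ), (0 : ℂ)) : ℂ × ℂ) = (0, 0) := by simp
  have Eα : EH a b ρ (fun u => α1 u - 2 * Real.pi * u.1) (fun u => α2 u - 2 * Real.pi * u.1) := by
    refine ⟨hb, hρ, hρ4, ?_, ?_, ⟨x₂, hx₂s, hx₂b, ?_⟩, ?_⟩
    · intro z hz
      exact (S1 z hz).aα.sub (analyticAt_const.mul analyticAt_fst)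
    · intro z hz
      exact (S2 z hz).aα.sub (analyticAt_const.mul analyticAt_fst)
    · filter_upwards [eα2] with u hu
      rw [hu]
    · have h1 := cshift.eventually (hα1 1)
      have h2 := hα1 0
      rw [h00] at h2
      filter_upwards [h1, h2, hW00] with u a b d
      rw [a, b]
      have := Ln.αper u.1 u.2 d
      simp only [this]
      ring
  have Ep : EH a b ρ p1 p2 := by
    refine ⟨hb, hρ, hρ4, fun z hz => (S1 z hz).ap, fun z hz => (S2 z hz).ap,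
      ⟨x₂, hx₂s, hx₂b, ep2⟩, ?_⟩
    have h1 := cshift.eventually (hp1 1)
    have h2 := hp1 0
    rw [h00] at h2
    filter_upwards [h1, h2, hW00] with u a b d
    rw [a, b]
    exact Ln.pper u.1 u.2 d
  refine ⟨fun u => NZ.Sm (cE a b ρ (fun u => α1 u - 2 * Real.pi * u.1)
    (fun u => α2 u - 2 * Real.pi * u.1)) u + 2 * Real.pi * u.1, NZ.Sm (cE a b ρ p1 p2), ?_, ?_, ?_⟩
  · intro δ hδ hδb
    obtain ⟨r₁, hr₁, h1⟩ := Eα.unif hδ hδb
    obtain ⟨r₂, hr₂, h2⟩ := Ep.unif hδ hδb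
    refine ⟨min r₁ r₂, lt_min hr₁ hr₂, ?_, ?_⟩
    · intro u hu
      exact (h1 u ⟨hu.1, ball_subset_ball (min_le_left _ _) hu.2⟩).add
        (analyticAt_const.mul analyticAt_fst)
    · intro u hu
      exact h2 u ⟨hu.1, ball_subset_ball (min_le_right _ _) hu.2⟩
  · intro t
    constructor
    · filter_upwards [Eα.germ1 (hreU t), hα1 t] with u a b
      rw [a, ← b]
      ring
    · filter_upwards [Ep.germ1 (hreU t), hp1 t] with u a b
      rw [a, b]
  · intro z hz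
    have h1 := (Eα.germ1 hz).self_of_nhds
    have h2 := (Ep.germ1 hz).self_of_nhds
    have h3 := (S1 z hz).axis
    constructor
    · simp only [h1, h3.1]
      ring
    · rw [h2, h3.2]

end Vale.Agent.P097.SC
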