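import Vale.Agent.P097.H128.Sector.Defs2
import Vale.Agent.P097.H202.T1La

/-! # P097 / sector row, final assembly, part 1: reduction to a holomorphic top point, reflection -/

set_option linter.all false

open Complex Metric Filter Topology Set
open scoped ComplexConjugate

namespace Vale.Agent.P097.SC

open Vale.Agent.P097 Vale.Agent.P097.TA Vale.Agent.P097.H202

theorem anConj {g : ℂ → ℂ} {x : ℂ} (h : AnalyticAt ℂ g (conj x)) :
    AnalyticAt ℂ (fun z => conj (g (conj z))) x := by
  rw [Complex.analyticAt_iff_eventually_differentiableAt] at h ⊢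
  have hc : Tendsto (fun z : ℂ => conj z) (𝓝 x) (𝓝 (conj x)) := continuous_conj.tendsto x
  filter_upwards [hc.eventually h] with z hz
  have h1 := hz.hasDerivAt.conj_conj
  rw [starRingEnd_self_apply] at h1
  exact h1.differentiableAt

theorem merConj {f : ℂ → ℂ} {x : ℂ} (h : MeromorphicAt f (conj x)) :
    MeromorphicAt (fun z => conj (f (conj z))) x := by
  obtain ⟨n, hn⟩ := h
  refine ⟨n, ?_⟩
  have h1 := anConj hn
  have h2 : (fun z => conj (((conj z - conj x) ^ n • f (conj z)))) =
      fun z => (z - x) ^ n • conj (f (conj z)) := by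
    funext z
    simp only [smul_eq_mul, map_mul, map_pow, map_sub, Complex.conj_conj]
  rw [← h2]
  exact h1

/-- gluing of the extensions above and below the strip -/
theorem mer_glue {b ε : ℝ} (hb : 0 < b) (hε : 0 < ε) {g G G2 : ℂ → ℂ}
    (h1 : MeromorphicOn G {z | -b < z.im ∧ z.im < b + ε}) (e1 : ∀ z ∈ Str b, G z = g z)
    (h2 : MeromorphicOn G2 {z | -(b + ε) < z.im ∧ z.im < b}) (e2 : ∀ z ∈ Str b, G2 z = g z) :
    ∃ K : ℂ → ℂ, MeromorphicOn K (Str (b + ε)) ∧ ∀ z ∈ Str b, K z = g z := by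
  classical
  refine ⟨fun z => if 0 ≤ z.im then G z else G2 z, ?_, ?_⟩
  · intro z hz
    rw [mem_Str, abs_lt] at hz
    by_cases hs : z ∈ Str b
    · have hs' := abs_lt.1 (mem_Str.1 hs)
      have m1 := h1 z ⟨hs'.1, by linarith [hs'.2]⟩
      refine m1.congr ?_
      have : ∀ᶠ y in 𝓝 z, G y = if 0 ≤ y.im then G y else G2 y := by
        filter_upwards [(isOpen_Str b).mem_nhds hs] with y hy
        by_cases h0 : 0 ≤ y.im
        · rw [if_pos h0]
        · rw [if_neg h0, e1 y hy, e2 y hy]
      exact this.filter_mono nhdsWithin_le_nhds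
    · rw [mem_Str, not_lt, le_abs] at hs
      rcases hs with hs | hs
      · have m1 := h1 z ⟨by linarith, hz.2⟩
        refine m1.congr ?_
        have ho : IsOpen {y : ℂ | 0 < y.im} := isOpen_lt continuous_const continuous_im
        have : ∀ᶠ y in 𝓝 z, G y = if 0 ≤ y.im then G y else G2 y := by
          filter_upwards [ho.mem_nhds (show 0 < z.im by linarith)] with y hy
          rw [if_pos (le_of_lt hy)]
        exact this.filter_mono nhdsWithin_le_nhds
      · have m1 := h2 z ⟨hz.1, by linarith⟩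
        refine m1.congr ?_
        have ho : IsOpen {y : ℂ | y.im < 0} := isOpen_lt continuous_im continuous_const
        have : ∀ᶠ y in 𝓝 z, G2 y = if 0 ≤ y.im then G y else G2 y := by
          filter_upwards [ho.mem_nhds (show z.im < 0 by linarith)] with y hy
          rw [if_neg (not_le.2 hy)]
        exact this.filter_mono nhdsWithin_le_nhds
  · intro z hz
    show (if 0 ≤ z.im then G z else G2 z) = g z
    by_cases h0 : 0 ≤ z.im
    · rw [if_pos h0, e1 z hz]
    · rw [if_neg h0, e2 z hz]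

/-- reduction to a point of the top line at which the curve is holomorphic -/
theorem exists_reg {a b ρ : ℝ} (hb : 0 < b) (hρ : 0 < ρ) {Z' q' Φb qb : ℂ → ℂ}
    (dΦ : DifferentiableOn ℂ Φb (Str b)) (dq : DifferentiableOn ℂ qb (Str b))
    (mZ : MeromorphicOn Z' (ball ((a : ℂ) + b * I) ρ))
    (mq : MeromorphicOn q' (ball ((a : ℂ) + b * I) ρ))
    (e : ∀ z ∈ ball ((a : ℂ) + b * I) ρ, z.im < b → Z' z = exp (I * Φb z) ∧ q' z = qb z) :
    ∃ (a' ρ' : ℝ) (Φ' q'' : ℂ → ℂ), 0 < ρ' ∧ ρ' ≤ 1 / 4 ∧
      DifferentiableOn ℂ Φ' (Str b ∪ ball ((a' : ℂ) + b * I) ρ') ∧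
      DifferentiableOn ℂ q'' (Str b ∪ ball ((a' : ℂ) + b * I) ρ') ∧
      ∀ z ∈ Str b, Φ' z = Φb z ∧ q'' z = qb z := by
  classical
  set z₀ : ℂ := (a : ℂ) + b * I with hz₀
  have hz₀im : z₀.im = b := by simp [hz₀]
  have m1 := mZ z₀ (mem_ball_self hρ)
  have m2 := mq z₀ (mem_ball_self hρ)
  have hne : ∀ᶠ z in 𝓝[≠] z₀, Z' z ≠ 0 := by
    rcases m1.eventually_eq_zero_or_eventually_ne_zero with h | h
    · exfalso
      rw [eventually_nhdsWithin_iff, Metric.eventually_nhds_iff_ball] at h
      obtain ⟨ε, hε, h⟩ := h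
      set t : ℝ := min ε ρ / 2 with ht
      have ht0 : 0 < t := by
        have := lt_min hε hρ
        positivity
      have htε : t < ε := by
        have := min_le_left ε ρ
        linarith
      have htρ : t < ρ := by
        have := min_le_right ε ρ
        linarith
      set y : ℂ := z₀ - t * I with hy
      have hd : dist y z₀ = t := by
        rw [dist_eq_norm, hy]
        have : z₀ - (t : ℂ) * I - z₀ = -((t : ℂ) * I) := by ring
        rw [this, norm_neg, norm_mul, norm_I, mul_one, Complex.norm_real, Real.norm_eq_abs,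
          abs_of_pos ht0]
      have hyim : y.im < b := by
        have : y.im = b - t := by rw [hy, sub_im, hz₀im]; simp
        linarith
      have hyne : y ≠ z₀ := by
        intro h0
        rw [h0, dist_self] at hd
        linarith
      have h3 := h y (by rw [mem_ball, hd]; exact htε) hyne
      have h4 := (e y (by rw [mem_ball, hd]; exact htρ) hyim).1
      rw [h4] at h3
      exact Complex.exp_ne_zero _ h3
    · exact h
  have hall := (m1.eventually_analyticAt.and m2.eventually_analyticAt).and hne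
  rw [eventually_nhdsWithin_iff, Metric.eventually_nhds_iff_ball] at hall
  obtain ⟨ε, hε, hgood⟩ := hall
  set ε' : ℝ := min ε ρ with hε'
  have hε'0 : 0 < ε' := lt_min hε hρ
  set a' : ℝ := a + ε' / 2 with ha'
  set z₁ : ℂ := (a' : ℂ) + b * I with hz₁
  have hz₁im : z₁.im = b := by simp [hz₁]
  set ρ' : ℝ := min (ε' / 4) (min (1 / 4) b) with hρ'
  have hρ'0 : 0 < ρ' := lt_min (by positivity) (lt_min (by norm_num) hb)
  have hρ'1 : ρ' ≤ ε' / 4 := min_le_left _ _
  have hρ'2 : ρ' ≤ 1 / 4 := (min_le_right _ _).trans (min_le_left _ _)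
  have hρ'3 : ρ' ≤ b := (min_le_right _ _).trans (min_le_right _ _)
  have hd01 : dist z₁ z₀ = ε' / 2 := by
    rw [dist_eq_norm, hz₁, hz₀, ha']
    have : ((a + ε' / 2 : ℝ) : ℂ) + b * I - ((a : ℂ) + b * I) = ((ε' / 2 : ℝ) : ℂ) := by
      push_cast; ring
    rw [this, Complex.norm_real, Real.norm_eq_abs, abs_of_pos (by positivity)]
  have hB : ∀ z ∈ ball z₁ ρ', z ∈ ball z₀ ε ∧ z ∈ ball z₀ ρ ∧ z ≠ z₀ := by
    intro z hz
    rw [mem_ball] at hz
    have h1 := dist_triangle z z₁ z₀
    have h2 : dist z z₀ < ε' := by linarith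
    refine ⟨lt_of_lt_of_le h2 (min_le_left _ _), lt_of_lt_of_le h2 (min_le_right _ _), ?_⟩
    rintro rfl
    rw [dist_comm] at hz
    linarith
  have aZ : ∀ z ∈ ball z₁ ρ', AnalyticAt ℂ Z' z ∧ AnalyticAt ℂ q' z ∧ Z' z ≠ 0 := fun z hz => by
    have h1 := hB z hz
    have h2 := hgood z h1.1 h1.2.2
    exact ⟨h2.1.1, h2.1.2, h2.2⟩
  obtain ⟨g, dg, hg⟩ := exists_log_convex isOpen_ball (convex_ball z₁ ρ') (f := Z')
    (fun z hz => (aZ z hz).1.differentiableAt.differentiableWithinAt) fun z hz => (aZ z hz).2.2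
  -- a common point
  set x₂ : ℂ := z₁ - ((ρ' / 2 : ℝ) : ℂ) * I with hx₂
  have hx₂im : x₂.im = b - ρ' / 2 := by rw [hx₂, sub_im, hz₁im]; simp
  have hx₂b : x₂ ∈ ball z₁ ρ' := by
    rw [mem_ball_iff_norm, hx₂]
    have : z₁ - ((ρ' / 2 : ℝ) : ℂ) * I - z₁ = -(((ρ' / 2 : ℝ) : ℂ) * I) := by ring
    rw [this, norm_neg, norm_mul, norm_I, mul_one, Complex.norm_real, Real.norm_eq_abs,
      abs_of_pos (by positivity)]
    linarith
  have hx₂s : x₂ ∈ Str b := by
    rw [mem_Str, hx₂im, abs_of_pos (by linarith)]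
    linarith
  have hstr : ∀ z ∈ ball z₁ ρ', z.im < b → z ∈ Str b := by
    intro z hz hzb
    rw [mem_Str, abs_lt]
    refine ⟨?_, hzb⟩
    rw [mem_ball_iff_norm] at hz
    have h1 := abs_im_le_norm (z - z₁)
    rw [sub_im, hz₁im] at h1
    have h2 := abs_le.1 h1
    linarith [h2.1]
  have heq0 : exp (g x₂) = exp (I * Φb x₂) := by
    rw [hg x₂ hx₂b]
    exact (e x₂ (hB x₂ hx₂b).2.1 (by rw [hx₂im]; linarith)).1
  obtain ⟨n, hn⟩ := Complex.exp_eq_exp_iff_exists_int.1 heq0
  set g2 : ℂ → ℂ := fun z => -I * (g z - n * (2 * Real.pi * I)) with hg2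
  have dg2 : DifferentiableOn ℂ g2 (ball z₁ ρ') := (dg.sub_const _).const_mul _
  have hexp : ∀ z ∈ ball z₁ ρ', exp (I * g2 z) = Z' z := by
    intro z hz
    rw [← hg z hz, hg2]
    have : I * (-I * (g z - n * (2 * Real.pi * I))) = g z - n * (2 * Real.pi * I) := by
      have := I_mul_I
      linear_combination (-(g z - n * (2 * Real.pi * I))) * this
    rw [this]
    exact Complex.exp_eq_exp_iff_exists_int.2 ⟨-n, by push_cast; ring⟩
  have hx₂eq : g2 x₂ = Φb x₂ := by
    have h3 := I_mul_I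
    simp only [hg2, hn]
    linear_combination (-Φb x₂) * h3
  -- equality on the intersection
  have hagree : ∀ z ∈ ball z₁ ρ', z ∈ Str b → g2 z = Φb z := by
    intro z hz hs
    have oW : IsOpen (ball z₁ ρ' ∩ Str b) := isOpen_ball.inter (isOpen_Str b)
    have cW : Convex ℝ (ball z₁ ρ' ∩ Str b) := (convex_ball _ _).inter (convex_Str b)
    have hder : ∀ y ∈ ball z₁ ρ' ∩ Str b, HasDerivAt (fun y => g2 y - Φb y) 0 y := by
      intro y hy
      have h1 := (dg2.differentiableAt (isOpen_ball.mem_nhds hy.1)).hasDerivAt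
      have h2 := (dΦ.differentiableAt ((isOpen_Str b).mem_nhds hy.2)).hasDerivAt
      have h3 := h1.sub h2
      have h4 : HasDerivAt (fun y => exp (I * (g2 y - Φb y)))
          (exp (I * (g2 y - Φb y)) * (I * (deriv g2 y - deriv Φb y))) y :=
        (h3.const_mul I).cexp
      have h5 : (fun y => exp (I * (g2 y - Φb y))) =ᶠ[𝓝 y] fun _ => 1 := by
        filter_upwards [oW.mem_nhds hy] with u hu
        have hub : u.im < b := (abs_lt.1 hu.2).2
        have h6 := (e u (hB u hu.1).2.1 hub).1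
        rw [mul_sub, Complex.exp_sub, hexp u hu.1, h6, div_self (Complex.exp_ne_zero _)]
      have h7 := (h4.congr_of_eventuallyEq h5.symm).unique (hasDerivAt_const y (1 : ℂ))
      have h8 : deriv g2 y - deriv Φb y = 0 := by
        rcases mul_eq_zero.1 h7 with h9 | h9
        · exact absurd h9 (Complex.exp_ne_zero _)
        · exact (mul_eq_zero.1 h9).resolve_left I_ne_zero
      exact h3.congr_deriv h8
    have h9 := const_of_deriv_zero oW cW hder ⟨hz, hs⟩ ⟨hx₂b, hx₂s⟩
    rw [hx₂eq, sub_self] at h9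
    exact sub_eq_zero.1 h9
  refine ⟨a', ρ', fun z => if z ∈ Str b then Φb z else g2 z,
    fun z => if z ∈ Str b then qb z else q' z, hρ'0, hρ'2, ?_, ?_, ?_⟩
  · rintro z (hz | hz)
    · have : DifferentiableAt ℂ Φb z := dΦ.differentiableAt ((isOpen_Str b).mem_nhds hz)
      refine (this.congr_of_eventuallyEq ?_).differentiableWithinAt
      filter_upwards [(isOpen_Str b).mem_nhds hz] with y hy
      rw [if_pos hy]
    · have : DifferentiableAt ℂ g2 z := dg2.differentiableAt (isOpen_ball.mem_nhds hz)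
      refine (this.congr_of_eventuallyEq ?_).differentiableWithinAt
      filter_upwards [isOpen_ball.mem_nhds hz] with y hy
      by_cases hs : y ∈ Str b
      · rw [if_pos hs, hagree y hy hs]
      · rw [if_neg hs]
  · rintro z (hz | hz)
    · have : DifferentiableAt ℂ qb z := dq.differentiableAt ((isOpen_Str b).mem_nhds hz)
      refine (this.congr_of_eventuallyEq ?_).differentiableWithinAt
      filter_upwards [(isOpen_Str b).mem_nhds hz] with y hy
      rw [if_pos hy]
    · have : DifferentiableAt ℂ q' z := (aZ z hz).2.1.differentiableAt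
      refine (this.congr_of_eventuallyEq ?_).differentiableWithinAt
      filter_upwards [isOpen_ball.mem_nhds hz] with y hy
      by_cases hs : y ∈ Str b
      · rw [if_pos hs, (e y (hB y hy).2.1 (abs_lt.1 hs).2).2]
      · rw [if_neg hs]
  · intro z hz
    exact ⟨if_pos hz, if_pos hz⟩

end Vale.Agent.P097.SC
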