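import Vale.Agent.P097.H128.Sector.E3
import Vale.Agent.P097.H128.Sector.Top1

/-! # P097 / sector row, final assembly, part 2 -/

set_option linter.all false

open Complex Metric Filter Topology Set
open scoped ComplexConjugate

namespace Vale.Agent.P097.SC

open Vale.Agent.P097 Vale.Agent.P097.TA Vale.Agent.P097.H202 Vale.Agent.P097.H456.Fct

theorem ofReal_mem_Str {b : ℝ} (hb : 0 < b) (x : ℝ) : (x : ℂ) ∈ Str b := by
  rw [mem_Str, ofReal_im, abs_zero]
  exact hb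

/-- **TOP** from the rows -/
theorem top_of (A : RegA) (D : RegD) (R : Reg) (F : SecF) (G : SecG) (I' : SecI) : Top := by
  intro fct κ Λ H Φ r e α p J C hna b Φb qb hb dΦ dq hreal hpt
  obtain ⟨a, ρ, Z', q', hρ, mZ, mq, he⟩ := hpt
  obtain ⟨a', ρ', Φ', q'', hρ', hρ4, dΦ', dq', heq⟩ := exists_reg hb hρ dΦ dq mZ mq he
  obtain ⟨αh, ph, hrad, hgerm, hax⟩ := secE_of A D R C hb hρ' hρ4 dΦ' dq' fun x =>
    ⟨((heq x (ofReal_mem_Str hb x)).1).trans (hreal x).1,
      ((heq x (ofReal_mem_Str hb x)).2).trans (hreal x).2⟩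
  obtain ⟨h, ρ₀, L, HH, lam, l, φ, LDh⟩ := C.ld
  have hβ : 0 < ρ' / 2 := by positivity
  have hβ1 : ρ' / 2 ≤ 1 := by linarith
  -- meromorphic ends
  have l1 : ∀ x : ℝ, LExt b (fun z => exp (I * αh (z, 0))) x := by
    refine G (a := a') (f := fun u => exp (I * αh u)) hβ hβ1 hb ?_
    intro δ hδ hδb
    obtain ⟨r₁, hr₁, a1, a2⟩ := hrad δ hδ hδb
    refine ⟨r₁, hr₁, ?_, ?_⟩
    · intro u hu
      exact (analyticAt_const.mul (a1 u hu)).cexp
    · intro n j hj
      exact (F fct C hna hβ hδ hδb hr₁ a1 a2 hgerm n j hj).1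
  have l2 : ∀ x : ℝ, LExt b (fun z => ph (z, 0)) x := by
    refine G (a := a') (f := ph) hβ hβ1 hb ?_
    intro δ hδ hδb
    obtain ⟨r₁, hr₁, a1, a2⟩ := hrad δ hδ hδb
    exact ⟨r₁, hr₁, a2, fun n j hj => (F fct C hna hβ hδ hδb hr₁ a1 a2 hgerm n j hj).2⟩
  -- values on the axis
  have v1 : ∀ z ∈ Str b, exp (I * αh (z, 0)) = exp (I * Φb z) := fun z hz => by
    rw [(hax z hz).1, (heq z hz).1]
  have v2 : ∀ z ∈ Str b, ph (z, 0) = qb z := fun z hz => by
    rw [(hax z hz).2, (heq z hz).2]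
  -- periodicity
  have Str1 : ∀ {z : ℂ}, z ∈ Str b → z + 1 ∈ Str b := fun h => Str_one.2 h
  have per : ∀ {f : ℂ → ℂ}, DifferentiableOn ℂ f (Str b) →
      DifferentiableOn ℂ (fun z => f (z + 1)) (Str b) := by
    intro f hf z hz
    have h1 := hf.differentiableAt ((isOpen_Str b).mem_nhds (Str1 hz))
    have h2 : DifferentiableAt ℂ (fun z : ℂ => z + 1) z := by fun_prop
    exact (DifferentiableAt.comp z h1 h2).differentiableWithinAt
  have pΦ : ∀ z ∈ Str b, Φb (z + 1) = Φb z + 2 * Real.pi := by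
    refine H500.strip_eq hb (per dΦ) (dΦ.add_const _) fun x => ?_
    have e1 := (hreal (x + 1)).1
    have e2 := LDh.Φp x (ofReal_mem_Str LDh.ρ0 x)
    have e3 := (hreal x).1
    push_cast at e1
    show Φb (x + 1) = Φb x + 2 * Real.pi
    rw [e1, e2, e3]
  have pq : ∀ z ∈ Str b, qb (z + 1) = qb z := by
    refine H500.strip_eq hb (per dq) dq fun x => ?_
    have e1 := (hreal (x + 1)).2
    have e2 := LDh.Φp x (ofReal_mem_Str LDh.ρ0 x)
    have e3 := (hreal x).2
    have e4 := LDh.Hp _ (Str_mono (by linarith [LDh.κ0]) (LDh.Φm x (ofReal_mem_Str LDh.ρ0 x)))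
    push_cast at e1
    show qb (x + 1) = qb x
    rw [e1, e2, e3, e4]
  -- gluing above
  have d1 : DifferentiableOn ℂ (fun z => exp (I * αh (z, 0))) (Str b) := by
    have h1 : DifferentiableOn ℂ (fun z => exp (I * Φb z)) (Str b) := (dΦ.const_mul I).cexp
    exact h1.congr v1
  have d2 : DifferentiableOn ℂ (fun z => ph (z, 0)) (Str b) := dq.congr v2
  obtain ⟨ε₁, G1, hε₁, m1, g1⟩ := I' hb d1 (fun z hz => by
    show exp (I * αh (z + 1, 0)) = exp (I * αh (z, 0))
    rw [v1 _ (Str1 hz), v1 z hz, pΦ z hz, mul_add, Complex.exp_add,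
      show I * (2 * (Real.pi : ℂ)) = 2 * Real.pi * I by ring, Complex.exp_two_pi_mul_I, mul_one]) l1
  obtain ⟨ε₂, G2, hε₂, m2, g2⟩ := I' hb d2 (fun z hz => by
    show ph (z + 1, 0) = ph (z, 0)
    rw [v2 _ (Str1 hz), v2 z hz, pq z hz]) l2
  -- reflection
  have cΦ : ∀ z ∈ Str b, Φb (conj z) = conj (Φb z) := conj_strip hb dΦ fun x => by
    rw [(hreal x).1, LDh.Φr, ofReal_im]
  have cq : ∀ z ∈ Str b, qb (conj z) = conj (qb z) := conj_strip hb dq fun x => by
    rw [(hreal x).2, LDh.Φr, LDh.Hr, ofReal_im]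
  have hcm : ∀ {z : ℂ}, z ∈ Str b → conj z ∈ Str b := fun h => conj_mem_Str h
  obtain ⟨K1, mK1, eK1⟩ := mer_glue (ε := ε₁) hb hε₁ (g := fun z => exp (I * Φb z)) (G := G1)
    (G2 := fun z => conj ((G1 (conj z))⁻¹)) m1 (fun z hz => by rw [g1 z hz, v1 z hz])
    (by
      intro z hz
      have h1 : conj z ∈ {z : ℂ | -b < z.im ∧ z.im < b + ε₁} := by
        constructor
        · rw [conj_im]; linarith [hz.2]
        · rw [conj_im]; linarith [hz.1]
      exact merConj (f := fun z => (G1 z)⁻¹) (m1 _ h1).inv)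
    (by
      intro z hz
      show conj ((G1 (conj z))⁻¹) = exp (I * Φb z)
      rw [g1 _ (hcm hz), v1 _ (hcm hz), cΦ z hz, ← Complex.exp_neg, ← Complex.exp_conj]
      congr 1
      simp)
  obtain ⟨K2, mK2, eK2⟩ := mer_glue (ε := ε₂) hb hε₂ (g := qb) (G := G2)
    (G2 := fun z => conj (G2 (conj z))) m2 (fun z hz => by rw [g2 z hz, v2 z hz])
    (by
      intro z hz
      have h1 : conj z ∈ {z : ℂ | -b < z.im ∧ z.im < b + ε₂} := by
        constructor
        · rw [conj_im]; linarith [hz.2]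
        · rw [conj_im]; linarith [hz.1]
      exact merConj (m2 _ h1))
    (by
      intro z hz
      show conj (G2 (conj z)) = qb z
      rw [g2 _ (hcm hz), v2 _ (hcm hz), cq z hz, Complex.conj_conj])
  refine ⟨min ε₁ ε₂, lt_min hε₁ hε₂, K1, K2, ?_, ?_, ?_⟩
  · intro z hz
    exact mK1 z (Str_mono (by linarith [min_le_left ε₁ ε₂]) hz)
  · intro z hz
    exact mK2 z (Str_mono (by linarith [min_le_right ε₁ ε₂]) hz)
  · intro x
    have hx := ofReal_mem_Str hb x
    refine ⟨?_, ?_⟩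
    · rw [eK1 _ hx, (hreal x).1]
    · rw [eK2 _ hx, (hreal x).2]

end Vale.Agent.P097.SC
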