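import Vale.Agent.P097.H128.Sector.Top2
import Vale.Agent.P097.H324.RegB1
import Vale.Agent.P097.H222.RegB2
import Vale.Agent.P097.H435.RC2
import Vale.Agent.P097.H158.SecPF
import Vale.Agent.P097.H158.SecI
import Vale.Agent.P097.H161.SecG.Fin
import Vale.Agent.P097.H845.RegD

/-! # P097 / REG and the sector row (D): unconditional -/

set_option linter.all false

namespace Vale.Agent.P097.SC

/-- **REG**: the lines are jointly regular along convex sets of regularity of the curve -/
theorem reg : Reg := reg_of regA (H324.regB1 regA) H222.RB.regB2 H435.RC.regC

/-- **SEC-E**: the joint domain of the lines -/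
theorem secE : SecE := secE_of regA H845.regD reg

/-- **TOP**: FCT and one meromorphic point of the top line give a larger strip of meromorphy -/
theorem top : Top := top_of regA H845.regD reg H158.secF H161.SecG.secG H158.secI

end Vale.Agent.P097.SC
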